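import Vale.Agent.P181.R2.H959.WDefs

set_option autoImplicit false

open scoped TensorProduct

namespace Vale.Agent.P181.H188W

open Vale.Agent.P181 Vale.Agent.P181.H280 Vale.Agent.P181.FR MvPolynomial

/-! ### Functions of points with individual degrees -/

noncomputable def MPd (B m : ℕ) (d : Fin B → ℕ) : Submodule ℂ ((Fin B → Fin m → ℂ) → ℂ) :=
  Submodule.span ℂ {G | ∃ q : Fin B → MvPolynomial (Fin m) ℂ, (∀ j, (q j).IsHomogeneous (d j)) ∧
    G = fun p => ∏ j, eval (p j) (q j)}

lemma MPd_const {B m : ℕ} (a : ℕ) : MPd B m (fun _ => a) = MP B m a := rfl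

lemma MPd_mul {B m : ℕ} {d d' : Fin B → ℕ} {F G : (Fin B → Fin m → ℂ) → ℂ}
    (hF : F ∈ MPd B m d) (hG : G ∈ MPd B m d') : F * G ∈ MPd B m (d + d') := by
  induction hF using Submodule.span_induction with
  | mem F hF =>
    obtain ⟨q, hq, rfl⟩ := hF
    induction hG using Submodule.span_induction with
    | mem G hG =>
      obtain ⟨r, hr, rfl⟩ := hG
      refine Submodule.subset_span ⟨fun j => q j * r j, fun j => (hq j).mul (hr j), ?_⟩
      funext p
      rw [Pi.mul_apply, ← Finset.prod_mul_distrib]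
      exact Finset.prod_congr rfl (fun j _ => (map_mul _ _ _).symm)
    | zero => rw [mul_zero]; exact Submodule.zero_mem _
    | add G H _ _ h h' => rw [mul_add]; exact Submodule.add_mem _ h h'
    | smul c G _ h => rw [mul_smul_comm]; exact Submodule.smul_mem _ _ h
  | zero => rw [zero_mul]; exact Submodule.zero_mem _
  | add G H _ _ h h' => rw [add_mul]; exact Submodule.add_mem _ h h'
  | smul c G _ h => rw [smul_mul_assoc]; exact Submodule.smul_mem _ _ h

lemma MPd_one {B m : ℕ} : (1 : (Fin B → Fin m → ℂ) → ℂ) ∈ MPd B m 0 :=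
  Submodule.subset_span ⟨fun _ => 1, fun _ => isHomogeneous_one _ _, by
    funext p; simp⟩

lemma MPd_pow {B m : ℕ} {d : Fin B → ℕ} {F : (Fin B → Fin m → ℂ) → ℂ}
    (hF : F ∈ MPd B m d) (n : ℕ) : F ^ n ∈ MPd B m (n • d) := by
  induction n with
  | zero => rw [pow_zero, zero_smul]; exact MPd_one
  | succ n ih => rw [pow_succ, add_smul, one_smul]; exact MPd_mul ih hF

lemma MPd_prod {B m : ℕ} {ι : Type} [DecidableEq ι] (s : Finset ι) (d : ι → Fin B → ℕ)
    (F : ι → (Fin B → Fin m → ℂ) → ℂ) (hF : ∀ i ∈ s, F i ∈ MPd B m (d i)) :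
    ∏ i ∈ s, F i ∈ MPd B m (∑ i ∈ s, d i) := by
  induction s using Finset.induction_on with
  | empty => rw [Finset.prod_empty, Finset.sum_empty]; exact MPd_one
  | insert i s hi ih =>
    rw [Finset.prod_insert hi, Finset.sum_insert hi]
    exact MPd_mul (hF i (Finset.mem_insert_self i s))
      (ih (fun j hj => hF j (Finset.mem_insert_of_mem hj)))

lemma HWF_mul {B m : ℕ} {l l' : Fin m → ℕ} {F G : (Fin B → Fin m → ℂ) → ℂ}
    (hF : HWF B m l F) (hG : HWF B m l' G) : HWF B m (l + l') (F * G) := by
  intro g hg p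
  rw [Pi.mul_apply, Pi.mul_apply, hF g hg, hG g hg]
  have : ∏ i, g i i ^ (l + l') i = (∏ i, g i i ^ l i) * ∏ i, g i i ^ l' i := by
    rw [← Finset.prod_mul_distrib]
    exact Finset.prod_congr rfl (fun i _ => pow_add _ _ _)
  rw [this]
  ring

lemma HWF_one {B m : ℕ} : HWF B m 0 1 := by
  intro g _ p
  simp

lemma HWF_pow {B m : ℕ} {l : Fin m → ℕ} {F : (Fin B → Fin m → ℂ) → ℂ}
    (hF : HWF B m l F) (n : ℕ) : HWF B m (n • l) (F ^ n) := by
  induction n with
  | zero => rw [pow_zero, zero_smul]; exact HWF_one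
  | succ n ih => rw [pow_succ, add_smul, one_smul]; exact HWF_mul ih hF

lemma HWF_prod {B m : ℕ} {ι : Type} [DecidableEq ι] (s : Finset ι) (l : ι → Fin m → ℕ)
    (F : ι → (Fin B → Fin m → ℂ) → ℂ) (hF : ∀ i ∈ s, HWF B m (l i) (F i)) :
    HWF B m (∑ i ∈ s, l i) (∏ i ∈ s, F i) := by
  induction s using Finset.induction_on with
  | empty => rw [Finset.prod_empty, Finset.sum_empty]; exact HWF_one
  | insert i s hi ih =>
    rw [Finset.prod_insert hi, Finset.sum_insert hi]
    exact HWF_mul (hF i (Finset.mem_insert_self i s))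
      (ih (fun j hj => hF j (Finset.mem_insert_of_mem hj)))

/-! ### Minors -/

/-- The minor of the points `e` and the first `i` coordinates. -/
noncomputable def dt {B m i : ℕ} (him : i ≤ m) (e : Fin i → Fin B) (p : Fin B → Fin m → ℂ) : ℂ :=
  Matrix.det (Matrix.of fun j k : Fin i => p (e j) (Fin.castLE him k))

lemma coord_MPd {B m : ℕ} (x : Fin B) (k : Fin m) :
    (fun p : Fin B → Fin m → ℂ => p x k) ∈ MPd B m (Pi.single x 1) := by
  classical
  refine Submodule.subset_span ⟨Function.update 1 x (X k), ?_, ?_⟩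
  · intro j
    by_cases hj : j = x
    · subst hj
      rw [Function.update_self, Pi.single_eq_same]
      exact isHomogeneous_X _ _
    · rw [Function.update_of_ne hj, Pi.single_eq_of_ne hj]
      exact isHomogeneous_one _ _
  · funext p
    rw [Finset.prod_eq_single x]
    · rw [Function.update_self, eval_X]
    · intro j _ hj
      rw [Function.update_of_ne hj, Pi.one_apply, map_one]
    · intro h
      exact absurd (Finset.mem_univ x) h

lemma dt_MPd {B m i : ℕ} (him : i ≤ m) (e : Fin i → Fin B) :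
    dt him e ∈ MPd B m (∑ j, Pi.single (e j) 1) := by
  classical
  have h : dt him e = ∑ τ : Equiv.Perm (Fin i), (((Equiv.Perm.sign τ : ℤˣ) : ℤ) : ℂ) •
      ∏ j : Fin i, (fun p : Fin B → Fin m → ℂ => p (e (τ j)) (Fin.castLE him j)) := by
    funext p
    rw [Finset.sum_apply]
    unfold dt
    rw [Matrix.det_apply]
    apply Finset.sum_congr rfl
    intro τ _
    rw [Pi.smul_apply, Finset.prod_apply, Units.smul_def, zsmul_eq_mul, smul_eq_mul]
    rfl
  rw [h]
  apply Submodule.sum_mem
  intro τ _
  apply Submodule.smul_mem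
  have h1 := MPd_prod (Finset.univ : Finset (Fin i)) (fun j => Pi.single (e (τ j)) 1)
    (fun j => fun p : Fin B → Fin m → ℂ => p (e (τ j)) (Fin.castLE him j))
    (fun j _ => coord_MPd _ _)
  have h2 : ∑ j, (Pi.single (e (τ j)) 1 : Fin B → ℕ) = ∑ j, Pi.single (e j) 1 :=
    Equiv.sum_comp τ (fun j => (Pi.single (e j) 1 : Fin B → ℕ))
  rwa [h2] at h1

lemma dt_HWF {B m i : ℕ} (him : i ≤ m) (e : Fin i → Fin B) : HWF B m (om m i) (dt him e) := by
  classical
  intro g hg p
  have h1 : (Matrix.of fun j k : Fin i => Matrix.vecMul (p (e j)) g (Fin.castLE him k)) =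
      (Matrix.of fun j k : Fin i => p (e j) (Fin.castLE him k)) *
        (Matrix.of fun j k : Fin i => g (Fin.castLE him j) (Fin.castLE him k)) := by
    ext j k
    rw [Matrix.mul_apply, Matrix.of_apply]
    simp only [Matrix.of_apply, Matrix.vecMul, dotProduct]
    symm
    apply Fintype.sum_of_injective (Fin.castLE him) (Fin.castLE_injective him)
    · intro l hl
      have h2 : i ≤ (l : ℕ) := by
        by_contra hlt
        push Not at hlt
        exact hl ⟨⟨l, hlt⟩, rfl⟩
      rw [hg.1 l _ (by
        rw [Fin.lt_def, Fin.val_castLE]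
        exact lt_of_lt_of_le k.2 h2), mul_zero]
    · intro l
      rfl
  have h2 : (Matrix.of fun j k : Fin i => g (Fin.castLE him j) (Fin.castLE him k)).det =
      ∏ j, g j j ^ om m i j := by
    rw [Matrix.det_of_isUpperTriangular]
    · apply Fintype.prod_of_injective (Fin.castLE him) (Fin.castLE_injective him)
      · intro l hl
        have h2 : ¬ ((l : ℕ) < i) := fun hlt => hl ⟨⟨l, hlt⟩, rfl⟩
        unfold om
        rw [if_neg h2, pow_zero]
      · intro l
        unfold om
        rw [if_pos (by rw [Fin.val_castLE]; exact l.2), pow_one]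
        rfl
    · intro j k hjk
      exact hg.1 _ _ hjk
  unfold dt
  rw [h1, Matrix.det_mul, h2, mul_comm]

/-- Two enumerations of the same set differ by a permutation. -/
lemma exists_perm {B i : ℕ} (e e' : Fin i → Fin B) (he : Function.Injective e)
    (he' : Function.Injective e') (h : Set.range e = Set.range e') :
    ∃ τ : Equiv.Perm (Fin i), e = e' ∘ τ := by
  refine ⟨((Equiv.ofInjective e he).trans (Equiv.setCongr h)).trans
    (Equiv.ofInjective e' he').symm, ?_⟩
  funext j
  have h1 := Equiv.apply_symm_apply (Equiv.ofInjective e' he')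
    (Equiv.setCongr h (Equiv.ofInjective e he j))
  have h2 := congrArg Subtype.val h1
  rw [Equiv.ofInjective_apply] at h2
  exact h2.symm

lemma dt_zero_iff {B m i : ℕ} (him : i ≤ m) (e e' : Fin i → Fin B) (he : Function.Injective e)
    (he' : Function.Injective e') (h : Set.range e = Set.range e') (p : Fin B → Fin m → ℂ) :
    dt him e p = 0 ↔ dt him e' p = 0 := by
  obtain ⟨τ, rfl⟩ := exists_perm e e' he he' h
  have h1 : dt him (e' ∘ τ) p = ((Equiv.Perm.sign τ : ℤˣ) : ℤ) * dt him e' p := by
    unfold dt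
    rw [← Matrix.det_permute]
    rfl
  rw [h1, mul_eq_zero]
  refine ⟨fun h2 => h2.resolve_left ?_, fun h2 => Or.inr h2⟩
  exact_mod_cast (Equiv.Perm.sign τ).ne_zero

/-! ### The swap -/

lemma card_mem {B i : ℕ} (hi : 1 ≤ i) (x : Fin B) :
    ((Finset.powersetCard i (Finset.univ : Finset (Fin B))).filter (fun S => x ∈ S)).card =
      (B - 1).choose (i - 1) := by
  classical
  have h1 : (Finset.univ.erase x : Finset (Fin B)).card = B - 1 := by
    rw [Finset.card_erase_of_mem (Finset.mem_univ x), Finset.card_univ, Fintype.card_fin]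
  rw [← h1, ← Finset.card_powersetCard]
  refine Finset.card_bij' (fun S _ => S.erase x) (fun S _ => insert x S) ?_ ?_ ?_ ?_
  · intro S hS
    rw [Finset.mem_filter, Finset.mem_powersetCard] at hS
    rw [Finset.mem_powersetCard]
    refine ⟨Finset.erase_subset_erase _ (Finset.subset_univ _), ?_⟩
    rw [Finset.card_erase_of_mem hS.2, hS.1.2]
  · intro S hS
    rw [Finset.mem_powersetCard] at hS
    have hx : x ∉ S := fun h => (Finset.mem_erase.1 (hS.1 h)).1 rfl
    rw [Finset.mem_filter, Finset.mem_powersetCard]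
    refine ⟨⟨Finset.subset_univ _, ?_⟩, Finset.mem_insert_self x S⟩
    rw [Finset.card_insert_of_notMem hx, hS.2]
    omega
  · intro S hS
    rw [Finset.mem_filter] at hS
    exact Finset.insert_erase hS.2
  · intro S hS
    rw [Finset.mem_powersetCard] at hS
    have hx : x ∉ S := fun h => (Finset.mem_erase.1 (hS.1 h)).1 rfl
    exact Finset.erase_insert hx

lemma swap {B i : ℕ} (hi : 2 ≤ i) (T T' : Finset (Fin B)) (hT : T.card = i)
    (hT' : T'.card = i) (hd : Disjoint T T') :
    ∃ k : Finset (Fin B) → ℕ, k T = 0 ∧ (∀ S, S ≠ T → S ≠ T' → 1 ≤ k S) ∧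
      (∀ x, ∑ S ∈ Finset.powersetCard i (Finset.univ : Finset (Fin B)),
        k S * (if x ∈ S then 1 else 0) = (B - 1).choose (i - 1)) ∧
      ∑ S ∈ Finset.powersetCard i (Finset.univ : Finset (Fin B)), k S = B.choose i := by
  classical
  obtain ⟨y, hy⟩ : T.Nonempty := Finset.card_pos.1 (by omega)
  obtain ⟨z, hz⟩ : T'.Nonempty := Finset.card_pos.1 (by omega)
  have hyT' : y ∉ T' := Finset.disjoint_left.1 hd hy
  have hzT : z ∉ T := Finset.disjoint_right.1 hd hz
  have hyz : y ≠ z := fun h => hzT (h ▸ hy)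
  obtain ⟨u, hu⟩ : (T.erase y).Nonempty := Finset.card_pos.1 (by
    rw [Finset.card_erase_of_mem hy]
    omega)
  obtain ⟨w, hw⟩ : (T'.erase z).Nonempty := Finset.card_pos.1 (by
    rw [Finset.card_erase_of_mem hz]
    omega)
  set T3 := insert z (T.erase y) with hT3
  set T3' := insert y (T'.erase z) with hT3'
  have hc3 : T3.card = i := by
    rw [hT3, Finset.card_insert_of_notMem (fun h => hzT (Finset.mem_of_mem_erase h)),
      Finset.card_erase_of_mem hy, hT]
    omega
  have hc3' : T3'.card = i := by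
    rw [hT3', Finset.card_insert_of_notMem (fun h => hyT' (Finset.mem_of_mem_erase h)),
      Finset.card_erase_of_mem hz, hT']
    omega
  have n1 : T ≠ T3 := fun h => hzT (h ▸ Finset.mem_insert_self z _)
  have n2 : T' ≠ T3' := fun h => hyT' (h ▸ Finset.mem_insert_self y _)
  have n3 : T' ≠ T3 := fun h => by
    have h1 : u ∈ T' := h ▸ Finset.mem_insert_of_mem hu
    exact Finset.disjoint_left.1 hd (Finset.mem_of_mem_erase hu) h1
  have n4 : T ≠ T3' := fun h => by
    have h1 : w ∈ T := h ▸ Finset.mem_insert_of_mem hw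
    exact Finset.disjoint_left.1 hd h1 (Finset.mem_of_mem_erase hw)
  have n5 : T ≠ T' := fun h => hyT' (h ▸ hy)
  set k : Finset (Fin B) → ℕ := fun S => if S = T ∨ S = T' then 0 else
    1 + (if S = T3 then 1 else 0) + (if S = T3' then 1 else 0) with hk
  have key : ∀ S, k S + ((if S = T then 1 else 0) + (if S = T' then 1 else 0)) =
      1 + ((if S = T3 then 1 else 0) + (if S = T3' then 1 else 0)) := by
    intro S
    rw [hk]
    by_cases h1 : S = T
    · subst h1
      simp [n1, n4, n5]
    · by_cases h2 : S = T'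
      · subst h2
        simp [n2, n3, h1]
      · simp only [h1, h2, or_self, if_false, add_zero]
        ring
  have hmem : ∀ S, S ∈ Finset.powersetCard i (Finset.univ : Finset (Fin B)) ↔ S.card = i := by
    intro S
    rw [Finset.mem_powersetCard]
    exact ⟨fun h => h.2, fun h => ⟨Finset.subset_univ _, h⟩⟩
  refine ⟨k, ?_, ?_, ?_, ?_⟩
  · rw [hk]
    simp
  · intro S h1 h2
    rw [hk]
    simp only [h1, h2, or_self, if_false]
    omega
  · intro x
    have hsingle : ∀ U : Finset (Fin B), U.card = i →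
        ∑ S ∈ Finset.powersetCard i (Finset.univ : Finset (Fin B)),
          (if S = U then 1 else 0) * (if x ∈ S then 1 else 0) = if x ∈ U then 1 else 0 := by
      intro U hU
      rw [Finset.sum_eq_single U]
      · simp
      · intro S _ hS
        rw [if_neg hS, zero_mul]
      · intro h
        exact absurd ((hmem U).2 hU) h
    have h1 : ∑ S ∈ Finset.powersetCard i (Finset.univ : Finset (Fin B)),
        (k S + ((if S = T then 1 else 0) + (if S = T' then 1 else 0))) *
          (if x ∈ S then 1 else 0) =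
        ∑ S ∈ Finset.powersetCard i (Finset.univ : Finset (Fin B)),
        (1 + ((if S = T3 then 1 else 0) + (if S = T3' then 1 else 0))) *
          (if x ∈ S then 1 else 0) :=
      Finset.sum_congr rfl (fun S _ => by rw [key])
    simp only [add_mul, Finset.sum_add_distrib, hsingle T hT, hsingle T' hT', hsingle T3 hc3,
      hsingle T3' hc3', one_mul] at h1
    have h2 : ∑ S ∈ Finset.powersetCard i (Finset.univ : Finset (Fin B)),
        (if x ∈ S then 1 else 0) = (B - 1).choose (i - 1) := by
      rw [← card_mem (by omega : 1 ≤ i) x, Finset.card_filter]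
    rw [h2] at h1
    have h3 : (if x ∈ T then 1 else 0) + (if x ∈ T' then 1 else 0) =
        (if x ∈ T3 then 1 else 0) + (if x ∈ T3' then 1 else 0) := by
      rw [hT3, hT3']
      by_cases hxy : x = y
      · subst hxy
        simp [hy, hyT', hyz]
      · by_cases hxz : x = z
        · subst hxz
          simp [hz, hzT, hyz.symm]
        · simp [hxy, hxz]
    omega
  · have hsingle : ∀ U : Finset (Fin B), U.card = i →
        ∑ S ∈ Finset.powersetCard i (Finset.univ : Finset (Fin B)),
          (if S = U then 1 else 0) = 1 := by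
      intro U hU
      rw [Finset.sum_eq_single U]
      · simp
      · intro S _ hS
        rw [if_neg hS]
      · intro h
        exact absurd ((hmem U).2 hU) h
    have h1 : ∑ S ∈ Finset.powersetCard i (Finset.univ : Finset (Fin B)),
        (k S + ((if S = T then 1 else 0) + (if S = T' then 1 else 0))) =
        ∑ S ∈ Finset.powersetCard i (Finset.univ : Finset (Fin B)),
        (1 + ((if S = T3 then 1 else 0) + (if S = T3' then 1 else 0))) :=
      Finset.sum_congr rfl (fun S _ => by rw [key])
    simp only [Finset.sum_add_distrib, hsingle T hT, hsingle T' hT', hsingle T3 hc3,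
      hsingle T3' hc3', Finset.sum_const, Finset.card_powersetCard, Finset.card_univ,
      Fintype.card_fin, smul_eq_mul, mul_one] at h1
    omega

/-! ### Points with exactly one vanishing minor -/

lemma det_updateRow_sum {i : ℕ} {κ : Type} [DecidableEq κ] (M : Matrix (Fin i) (Fin i) ℂ)
    (a : Fin i) (s : Finset κ) (f : κ → Fin i → ℂ) :
    (M.updateRow a (∑ t ∈ s, f t)).det = ∑ t ∈ s, (M.updateRow a (f t)).det := by
  induction s using Finset.induction_on with
  | empty =>
    rw [Finset.sum_empty, Finset.sum_empty]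
    exact Matrix.det_eq_zero_of_row_eq_zero a (fun j => by rw [Matrix.updateRow_self]; rfl)
  | insert t s ht ih =>
    rw [Finset.sum_insert ht, Finset.sum_insert ht, Matrix.det_updateRow_add, ih]

/-- The points. -/
noncomputable def pts {B : ℕ} (m : ℕ) (T : Finset (Fin B)) (t0 : Fin B) (s : ℂ) :
    Fin B → Fin m → ℂ := fun x k =>
  if x = t0 then ∑ t ∈ T.erase t0, s ^ (t : ℕ) * (((t : ℕ) : ℂ) ^ (k : ℕ))
  else ((x : ℕ) : ℂ) ^ (k : ℕ)

lemma dt_pts_out {B m i : ℕ} (him : i ≤ m) (T : Finset (Fin B)) (t0 : Fin B) (s : ℂ)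
    (e : Fin i → Fin B) (he : Function.Injective e) (h0 : t0 ∉ Set.range e) :
    dt him e (pts m T t0 s) ≠ 0 := by
  have h1 : (Matrix.of fun j k : Fin i => pts m T t0 s (e j) (Fin.castLE him k)) =
      Matrix.vandermonde (fun j => ((e j : ℕ) : ℂ)) := by
    ext j k
    rw [Matrix.of_apply, Matrix.vandermonde_apply]
    unfold pts
    rw [if_neg (fun h => h0 ⟨j, h⟩)]
    rfl
  unfold dt
  rw [h1, Matrix.det_vandermonde_ne_zero_iff]
  intro j j' h
  apply he
  apply Fin.ext
  have h' : ((e j : ℕ) : ℂ) = ((e j' : ℕ) : ℂ) := h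
  exact_mod_cast h'

lemma dt_pts_in {B m i : ℕ} (him : i ≤ m) (T : Finset (Fin B)) (hT : T.card = i) {t0 : Fin B}
    (ht0 : t0 ∈ T) (e : Fin i → Fin B) (he : Function.Injective e) (h0 : t0 ∈ Set.range e) :
    ∃ Q : Polynomial ℂ, (∀ s : ℂ, dt him e (pts m T t0 s) = Q.eval s) ∧
      (Set.range e ≠ (T : Set (Fin B)) → Q ≠ 0) ∧ (Set.range e = (T : Set (Fin B)) → Q = 0) := by
  classical
  obtain ⟨a, ha⟩ := h0
  set V : Matrix (Fin i) (Fin i) ℂ := Matrix.vandermonde (fun j => ((e j : ℕ) : ℂ)) with hV
  set D : Fin B → ℂ := fun t => (V.updateRow a (fun k => ((t : ℕ) : ℂ) ^ (k : ℕ))).det with hD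
  have hDv : ∀ t : Fin B, V.updateRow a (fun k => ((t : ℕ) : ℂ) ^ (k : ℕ)) =
      Matrix.vandermonde (fun j => (((Function.update e a t) j : ℕ) : ℂ)) := by
    intro t
    ext j k
    by_cases hj : j = a
    · subst hj
      rw [Matrix.updateRow_self, Matrix.vandermonde_apply, Function.update_self]
    · rw [Matrix.updateRow_ne hj, hV, Matrix.vandermonde_apply, Matrix.vandermonde_apply,
        Function.update_of_ne hj]
  have hDne : ∀ t, t ∉ Set.range e → D t ≠ 0 := by
    intro t ht
    rw [hD]
    simp only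
    rw [hDv, Matrix.det_vandermonde_ne_zero_iff]
    intro j j' h
    have h1 : Function.update e a t j = Function.update e a t j' := by
      apply Fin.ext
      have h' : (((Function.update e a t) j : ℕ) : ℂ) = (((Function.update e a t) j' : ℕ) : ℂ) := h
      exact_mod_cast h'
    by_cases hj : j = a
    · by_cases hj' : j' = a
      · rw [hj, hj']
      · rw [hj, Function.update_self, Function.update_of_ne hj'] at h1
        exact absurd ⟨j', h1.symm⟩ ht
    · by_cases hj' : j' = a
      · rw [hj', Function.update_self, Function.update_of_ne hj] at h1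
        exact absurd ⟨j, h1⟩ ht
      · rw [Function.update_of_ne hj, Function.update_of_ne hj'] at h1
        exact he h1
  have hD0 : ∀ t, t ≠ t0 → t ∈ Set.range e → D t = 0 := by
    intro t htt ht
    obtain ⟨j, rfl⟩ := ht
    have hja : j ≠ a := fun h => htt (h ▸ ha)
    by_contra hne
    rw [hD] at hne
    simp only at hne
    have hne' : _ ≠ (0 : ℂ) := hne
    rw [hDv, Matrix.det_vandermonde_ne_zero_iff] at hne'
    apply hja
    apply hne'
    simp only
    rw [Function.update_self, Function.update_of_ne hja]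
  refine ⟨∑ t ∈ T.erase t0, Polynomial.C (D t) * Polynomial.X ^ (t : ℕ), ?_, ?_, ?_⟩
  · intro s
    have h1 : (Matrix.of fun j k : Fin i => pts m T t0 s (e j) (Fin.castLE him k)) =
        V.updateRow a (∑ t ∈ T.erase t0, s ^ (t : ℕ) • fun k : Fin i =>
          ((t : ℕ) : ℂ) ^ (k : ℕ)) := by
      ext j k
      rw [Matrix.of_apply]
      unfold pts
      by_cases hj : j = a
      · subst hj
        rw [Matrix.updateRow_self, if_pos ha, Finset.sum_apply]
        rfl
      · rw [Matrix.updateRow_ne hj, hV, Matrix.vandermonde_apply,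
          if_neg (fun h => hj (he (h.trans ha.symm)))]
        rfl
    unfold dt
    rw [h1, det_updateRow_sum, Polynomial.eval_finsetSum]
    apply Finset.sum_congr rfl
    intro t _
    rw [Matrix.det_updateRow_smul, Polynomial.eval_mul, Polynomial.eval_C, Polynomial.eval_pow,
      Polynomial.eval_X, mul_comm]
  · intro hne h0
    have hex : ∃ t ∈ T, t ∉ Set.range e := by
      by_contra hcon
      push Not at hcon
      apply hne
      have h1 : T ⊆ Finset.univ.image e := by
        intro t ht
        obtain ⟨j, hj⟩ := hcon t ht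
        exact Finset.mem_image.2 ⟨j, Finset.mem_univ j, hj⟩
      have h2 : T = Finset.univ.image e := by
        apply Finset.eq_of_subset_of_card_le h1
        rw [Finset.card_image_of_injective _ he, Finset.card_univ, Fintype.card_fin, hT]
      rw [h2]
      ext x
      simp
    obtain ⟨t, htT, ht⟩ := hex
    have htt : t ≠ t0 := fun h => ht (h ▸ ⟨a, ha⟩)
    apply hDne t ht
    have h1 := congrArg (fun q => Polynomial.coeff q (t : ℕ)) h0
    simp only [Polynomial.finsetSum_coeff, Polynomial.coeff_C_mul, Polynomial.coeff_X_pow,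
      Polynomial.coeff_zero] at h1
    rw [Finset.sum_eq_single t] at h1
    · simpa using h1
    · intro t' _ htt'
      rw [if_neg (fun h => htt' (Fin.ext h.symm)), mul_zero]
    · intro h
      exact absurd (Finset.mem_erase.2 ⟨htt, htT⟩) h
  · intro heq
    apply Finset.sum_eq_zero
    intro t ht
    rw [Finset.mem_erase] at ht
    rw [hD0 t ht.1 (heq ▸ ht.2), Polynomial.C_0, zero_mul]

lemma exists_pts {B m i : ℕ} (him : i ≤ m) (hi : 1 ≤ i) (T : Finset (Fin B)) (hT : T.card = i) :
    ∃ P : Fin B → Fin m → ℂ, ∀ e : Fin i → Fin B, Function.Injective e →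
      (dt him e P = 0 ↔ Set.range e = (T : Set (Fin B))) := by
  classical
  obtain ⟨t0, ht0⟩ : T.Nonempty := Finset.card_pos.1 (by omega)
  have hex : ∀ e : Fin i → Fin B, ∃ Q : Polynomial ℂ, (Function.Injective e →
      (∀ s : ℂ, dt him e (pts m T t0 s) = Q.eval s) ∧
      (Set.range e ≠ (T : Set (Fin B)) → Q ≠ 0) ∧ (Set.range e = (T : Set (Fin B)) → Q = 0)) ∨
      (t0 ∉ Set.range e ∧ Q = 1) := by
    intro e
    by_cases h0 : t0 ∈ Set.range e
    · by_cases he : Function.Injective e
      · obtain ⟨Q, hQ⟩ := dt_pts_in him T hT ht0 e he h0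
        exact ⟨Q, Or.inl fun _ => hQ⟩
      · exact ⟨1, Or.inl fun h => absurd h he⟩
    · exact ⟨1, Or.inr ⟨h0, rfl⟩⟩
  choose Q hQ using hex
  set R : Polynomial ℂ := ∏ e : Fin i → Fin B, if Q e = 0 then 1 else Q e with hR
  have hR0 : R ≠ 0 := by
    rw [hR, Finset.prod_ne_zero_iff]
    intro e _
    split_ifs with h
    · exact one_ne_zero
    · exact h
  obtain ⟨s, hs⟩ : ∃ s : ℂ, R.eval s ≠ 0 := by
    by_contra h
    push Not at h
    exact hR0 (Polynomial.funext (fun s => by rw [h s, Polynomial.eval_zero]))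
  refine ⟨pts m T t0 s, fun e he => ?_⟩
  have hQs : Q e ≠ 0 → (Q e).eval s ≠ 0 := by
    intro hne h0
    apply hs
    rw [hR, Polynomial.eval_prod]
    apply Finset.prod_eq_zero (Finset.mem_univ e)
    rw [if_neg hne, h0]
  by_cases h0 : t0 ∈ Set.range e
  · rcases hQ e with h | h
    · obtain ⟨h1, h2, h3⟩ := h he
      rw [h1]
      constructor
      · intro h4
        by_contra hne
        exact hQs (h2 hne) h4
      · intro h4
        rw [h3 h4, Polynomial.eval_zero]
    · exact absurd h0 h.1
  · constructor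
    · intro h
      exact absurd h (dt_pts_out him T t0 s e he h0)
    · intro h
      exact absurd (h ▸ ht0 : t0 ∈ Set.range e) h0

/-! ### The theorem -/

open Classical in
/-- The minor of a set. -/
noncomputable def ms {B m i : ℕ} (him : i ≤ m) (S : Finset (Fin B)) : (Fin B → Fin m → ℂ) → ℂ :=
  if h : S.card = i then dt him (S.orderEmbOfFin h) else 1

lemma ms_MPd {B m i : ℕ} (him : i ≤ m) {S : Finset (Fin B)} (hS : S.card = i) :
    ms him S ∈ MPd B m (fun x => if x ∈ S then 1 else 0) := by
  classical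
  unfold ms
  rw [dif_pos hS]
  have h := dt_MPd him (fun j => S.orderEmbOfFin hS j)
  have h1 : (∑ j, Pi.single (S.orderEmbOfFin hS j) 1 : Fin B → ℕ) =
      fun x => if x ∈ S then 1 else 0 := by
    funext x
    rw [Finset.sum_apply]
    by_cases hx : x ∈ S
    · rw [if_pos hx]
      have h2 : x ∈ Set.range (S.orderEmbOfFin hS) := by
        rw [Finset.range_orderEmbOfFin]
        exact hx
      obtain ⟨j, rfl⟩ := h2
      rw [Finset.sum_eq_single j]
      · rw [Pi.single_eq_same]
      · intro j' _ hj'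
        rw [Pi.single_eq_of_ne]
        exact fun h => hj' ((S.orderEmbOfFin hS).injective h.symm)
      · intro h
        exact absurd (Finset.mem_univ j) h
    · rw [if_neg hx]
      apply Finset.sum_eq_zero
      intro j _
      rw [Pi.single_eq_of_ne]
      intro h
      exact hx (h ▸ Finset.orderEmbOfFin_mem S hS j)
  rw [h1] at h
  exact h

lemma ms_HWF {B m i : ℕ} (him : i ≤ m) {S : Finset (Fin B)} (hS : S.card = i) :
    HWF B m (om m i) (ms him S) := by
  unfold ms
  rw [dif_pos hS]
  exact dt_HWF him _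

lemma prod_MP {B m i : ℕ} (him : i ≤ m) (k : Finset (Fin B) → ℕ) {c n : ℕ}
    (hk : ∀ x, ∑ S ∈ Finset.powersetCard i (Finset.univ : Finset (Fin B)),
        k S * (if x ∈ S then 1 else 0) = c)
    (hn : ∑ S ∈ Finset.powersetCard i (Finset.univ : Finset (Fin B)), k S = n) :
    (∏ S ∈ Finset.powersetCard i (Finset.univ : Finset (Fin B)), ms him S ^ k S) ∈ MP B m c ∧
    HWF B m (n • om m i)
      (∏ S ∈ Finset.powersetCard i (Finset.univ : Finset (Fin B)), ms him S ^ k S) := by
  classical
  constructor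
  · have h := MPd_prod (Finset.powersetCard i (Finset.univ : Finset (Fin B)))
      (fun S => k S • (fun x => if x ∈ S then 1 else 0)) (fun S => ms him S ^ k S)
      (fun S hS => MPd_pow (ms_MPd him (Finset.mem_powersetCard.1 hS).2) _)
    have h1 : (∑ S ∈ Finset.powersetCard i (Finset.univ : Finset (Fin B)),
        k S • (fun x : Fin B => if x ∈ S then 1 else 0) : Fin B → ℕ) = fun _ => c := by
      funext x
      rw [Finset.sum_apply, ← hk x]
      exact Finset.sum_congr rfl (fun S _ => rfl)
    rw [h1] at h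
    exact h
  · have h := HWF_prod (Finset.powersetCard i (Finset.univ : Finset (Fin B)))
      (fun S => k S • om m i) (fun S => ms him S ^ k S)
      (fun S hS => HWF_pow (ms_HWF him (Finset.mem_powersetCard.1 hS).2) _)
    rw [← Finset.sum_smul, hn] at h
    exact h

/-- ROW W2. -/
theorem hyper {B m i : ℕ} (hi : 2 ≤ i) (him : i ≤ m) (hB : 2 * i + 1 ≤ B)
    (σ : Equiv.Perm (Fin B)) (hσ : σ ≠ 1) :
    ∃ A A' : (Fin B → Fin m → ℂ) → ℂ, A ∈ MP B m ((B - 1).choose (i - 1)) ∧
      A' ∈ MP B m ((B - 1).choose (i - 1)) ∧ HWF B m (B.choose i • om m i) A ∧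
      HWF B m (B.choose i • om m i) A' ∧
      ∃ P, A P * A' (fun j => P (σ j)) ≠ A (fun j => P (σ j)) * A' P := by
  classical
  obtain ⟨x, hx⟩ : ∃ x, σ x ≠ x := by
    by_contra h
    push Not at h
    exact hσ (Equiv.ext h)
  -- the set `T1`
  obtain ⟨T1, h1a, h1b, hT1⟩ := Finset.exists_subsuperset_card_eq
    (s := {σ x}) (t := (Finset.univ.erase x : Finset (Fin B))) (n := i)
    (by
      rw [Finset.singleton_subset_iff, Finset.mem_erase]
      exact ⟨hx, Finset.mem_univ _⟩)
    (by rw [Finset.card_singleton]; omega)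
    (by
      rw [Finset.card_erase_of_mem (Finset.mem_univ x), Finset.card_univ, Fintype.card_fin]
      omega)
  have hσx : σ x ∈ T1 := h1a (Finset.mem_singleton_self _)
  have hxT : x ∉ T1 := fun h => (Finset.mem_erase.1 (h1b h)).1 rfl
  set T2 : Finset (Fin B) := T1.map σ.symm.toEmbedding with hT2
  have hT2c : T2.card = i := by rw [hT2, Finset.card_map, hT1]
  have hmem2 : ∀ y, y ∈ T2 ↔ σ y ∈ T1 := by
    intro y
    rw [hT2, Finset.mem_map]
    constructor
    · rintro ⟨z, hz, rfl⟩
      simpa using hz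
    · intro h
      exact ⟨σ y, h, by simp⟩
  have h12 : T1 ≠ T2 := fun h => hxT (h ▸ (hmem2 x).2 hσx)
  -- the partner of `T2`
  obtain ⟨u, hu2, hu1⟩ : ∃ u, u ∈ T2ᶜ ∧ u ∉ T1 := by
    by_contra h
    push Not at h
    have h1 : T2ᶜ ⊆ T1 := h
    have h2 := Finset.card_le_card h1
    rw [Finset.card_compl, Fintype.card_fin, hT2c, hT1] at h2
    omega
  obtain ⟨T2', h2a, h2b, hT2'⟩ := Finset.exists_subsuperset_card_eq (s := {u}) (t := T2ᶜ) (n := i)
    (by rw [Finset.singleton_subset_iff]; exact hu2)
    (by rw [Finset.card_singleton]; omega)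
    (by
      rw [Finset.card_compl, Fintype.card_fin, hT2c]
      omega)
  have hd2 : Disjoint T2 T2' :=
    Finset.disjoint_right.2 (fun y hy => Finset.mem_compl.1 (h2b hy))
  have h12' : T1 ≠ T2' := fun h => hu1 (h ▸ h2a (Finset.mem_singleton_self u))
  -- the partner of `T1`
  obtain ⟨T1', h3b, hT1'⟩ := Finset.exists_subset_card_eq (s := T1ᶜ) (n := i) (by
    rw [Finset.card_compl, Fintype.card_fin, hT1]
    omega)
  have hd1 : Disjoint T1 T1' :=
    Finset.disjoint_right.2 (fun y hy => Finset.mem_compl.1 (h3b hy))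
  obtain ⟨k, hk1, hk2, hk3, hk4⟩ := swap hi T2 T2' hT2c hT2' hd2
  obtain ⟨k', hk1', hk2', hk3', hk4'⟩ := swap hi T1 T1' hT1 hT1' hd1
  obtain ⟨P, hP⟩ := exists_pts him (by omega) T1 hT1
  have hA := prod_MP him k hk3 hk4
  have hA' := prod_MP him k' hk3' hk4'
  refine ⟨_, _, hA.1, hA'.1, hA.2, hA'.2, P, ?_⟩
  have hmem : ∀ S, S ∈ Finset.powersetCard i (Finset.univ : Finset (Fin B)) ↔ S.card = i := by
    intro S
    rw [Finset.mem_powersetCard]
    exact ⟨fun h => h.2, fun h => ⟨Finset.subset_univ _, h⟩⟩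
  -- values of the minors
  have hms : ∀ S : Finset (Fin B), S.card = i → (ms him S P = 0 ↔ S = T1) := by
    intro S hS
    unfold ms
    rw [dif_pos hS, hP _ (S.orderEmbOfFin hS).injective, Finset.range_orderEmbOfFin]
    exact Finset.coe_inj
  have hmsσ : ∀ S : Finset (Fin B), S.card = i →
      (ms him S (fun j => P (σ j)) = 0 ↔ S = T2) := by
    intro S hS
    unfold ms
    rw [dif_pos hS]
    have h1 : dt him (S.orderEmbOfFin hS) (fun j => P (σ j)) =
        dt him (fun j => σ (S.orderEmbOfFin hS j)) P := rfl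
    rw [h1, hP _ (fun a b hab => (S.orderEmbOfFin hS).injective (σ.injective hab))]
    have h2 : Set.range (fun j => σ (S.orderEmbOfFin hS j)) = σ '' (S : Set (Fin B)) := by
      rw [← Finset.range_orderEmbOfFin S hS, ← Set.range_comp]
      rfl
    rw [h2]
    constructor
    · intro h
      ext y
      rw [hmem2, ← Finset.mem_coe (s := T1), ← h, Set.mem_image]
      constructor
      · intro hy
        exact ⟨y, hy, rfl⟩
      · rintro ⟨z, hz, hzy⟩
        exact σ.injective hzy ▸ hz
    · intro h
      subst h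
      ext y
      rw [Set.mem_image]
      constructor
      · rintro ⟨z, hz, rfl⟩
        exact (hmem2 z).1 hz
      · intro hy
        exact ⟨σ.symm y, (hmem2 _).2 (by simpa using hy), by simp⟩
  have hA0 : (∏ S ∈ Finset.powersetCard i (Finset.univ : Finset (Fin B)), ms him S ^ k S) P = 0 := by
    rw [Finset.prod_apply]
    apply Finset.prod_eq_zero ((hmem T1).2 hT1)
    rw [Pi.pow_apply, (hms T1 hT1).2 rfl, zero_pow]
    have := hk2 T1 h12 h12'
    omega
  have hA1 : (∏ S ∈ Finset.powersetCard i (Finset.univ : Finset (Fin B)), ms him S ^ k S)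
      (fun j => P (σ j)) ≠ 0 := by
    rw [Finset.prod_apply, Finset.prod_ne_zero_iff]
    intro S hS
    rw [Pi.pow_apply]
    by_cases h : S = T2
    · rw [h, hk1, pow_zero]
      exact one_ne_zero
    · exact pow_ne_zero _ (fun h0 => h ((hmsσ S ((hmem S).1 hS)).1 h0))
  have hA2 : (∏ S ∈ Finset.powersetCard i (Finset.univ : Finset (Fin B)), ms him S ^ k' S) P ≠ 0 := by
    rw [Finset.prod_apply, Finset.prod_ne_zero_iff]
    intro S hS
    rw [Pi.pow_apply]
    by_cases h : S = T1
    · rw [h, hk1', pow_zero]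
      exact one_ne_zero
    · exact pow_ne_zero _ (fun h0 => h ((hms S ((hmem S).1 hS)).1 h0))
  rw [hA0, zero_mul]
  exact (mul_ne_zero hA1 hA2).symm

end Vale.Agent.P181.H188W
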