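import Vale.Agent.P181.R2.H556.ThreeDefs

/-!
# P181, cubic growth of the three-row tail: definitions

Forms invariant under both shears `X 0 ↦ X 0 + ε X 2` and `X 1 ↦ X 1 + ε X 2`.
-/

set_option autoImplicit false

open MvPolynomial

namespace Vale.Agent.P181.T3R

open Vale.Agent.P181 Vale.Agent.P181.H536 Vale.Agent.P181.H280

/-- The shear `X 1 ↦ X 1 + ε * X 2`. -/
noncomputable def sh1 (ε : ℂ) : S3 →ₐ[ℂ] S3 := aeval ![X 0, X 1 + ε • X 2, X 2]

lemma sh1_X0 (ε : ℂ) : sh1 ε (X 0) = X 0 := by simp [sh1]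
lemma sh1_X1 (ε : ℂ) : sh1 ε (X 1) = X 1 + ε • X 2 := by simp [sh1]
lemma sh1_X2 (ε : ℂ) : sh1 ε (X 2) = X 2 := by simp [sh1]

/-- Invariance under the shears `sh1 ε` in degree `b`. -/
def Inv1 (b : ℕ) {a : ℕ} (F : Fm a) : Prop :=
  ∀ (ε : ℂ) (P : Fin a → S3), Dg b P → F (fun i => sh1 ε (P i)) = F P

/-- `L_s(a, b, t)` for forms invariant under both shears. -/
def LL2 (s a b t : ℕ) : Prop :=
  ∀ F : Fm a, IsSymm F → Inv b F → Inv1 b F → Hom b t F → QQ s b F → Van b F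

/-- `K(a, b, t)` for forms invariant under both shears. -/
def KK2 (a b t : ℕ) : Prop :=
  ∀ F : Fm a, IsSymm F → Inv b F → Inv1 b F → Hom b t F → IsK (linS 3) b F → Van b F

lemma KK.two {a b t : ℕ} (h : KK a b t) : KK2 a b t :=
  fun F hs hI _ hH hK => h F hs hI hH hK

lemma sh1_mem {d : ℕ} (ε : ℂ) {P : S3} (hP : P ∈ linS 3 ^ d) : sh1 ε P ∈ linS 3 ^ d := by
  have h1 : (linS 3 ^ d).map (sh1 ε).toLinearMap ≤ linS 3 ^ d := by
    rw [Submodule.map_pow]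
    apply pow_le_pow_left'
    rw [linS, Submodule.map_span, Submodule.span_le]
    rintro _ ⟨_, ⟨i, rfl⟩, rfl⟩
    change sh1 ε (X i) ∈ linS 3
    fin_cases i
    · change sh1 ε (X 0) ∈ linS 3
      rw [sh1_X0]; exact X_mem_linS _
    · change sh1 ε (X 1) ∈ linS 3
      rw [sh1_X1]
      exact (linS 3).add_mem (X_mem_linS _) ((linS 3).smul_mem _ (X_mem_linS _))
    · change sh1 ε (X 2) ∈ linS 3
      rw [sh1_X2]; exact X_mem_linS _
  exact h1 ⟨P, hP, rfl⟩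

end Vale.Agent.P181.T3R
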