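import Vale.Agent.P181.R2.H553.CDefs
import Vale.Agent.P181.R2.H553.Six
import Vale.Agent.P181.R2.H644.BRows

/-!
Row A4: many independent invariants at the corner.
-/

set_option autoImplicit false

open scoped TensorProduct
open MvPolynomial

namespace Vale.Agent.P181.H188C

open Vale.Agent.P181 Vale.Agent.P181.H280 Vale.Agent.P181.H179 Vale.Agent.P181.H553

lemma hwf_one (a : ℕ) : HWF a 0 0 1 := by
  have h := hwf_of (a := a) (r := 0) (lam := 0) 1 (fun l => l.elim0) (fun g _ p => by simp)
  have h1 : (fun c => integ c (fun p => eval (fun s : Fin 0 × Fin 3 => p s.1 s.2) 1)) =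
      (1 : Meas → ℂ) := by
    funext c
    rw [integ_zero, map_one]
    rfl
  rwa [h1] at h

lemma hwf_prod5 {ι : Type} [DecidableEq ι] {a : ℕ} (s : Finset ι) (w : Fin 3 → ℕ)
    (f : ι → Meas → ℂ) (h : ∀ i, HWF a 5 w (f i)) :
    HWF a (5 * s.card) (s.card • w) (∏ i ∈ s, f i) := by
  induction s using Finset.induction_on with
  | empty =>
    rw [Finset.card_empty, Finset.prod_empty, mul_zero, zero_smul]
    exact hwf_one a
  | insert i s hi ih =>
    have h1 := ih.mul (h i)
    have e1 : 5 * s.card + 5 = 5 * (insert i s).card := by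
      rw [Finset.card_insert_of_notMem hi]
      ring
    have e2 : s.card • w + w = (insert i s).card • w := by
      rw [Finset.card_insert_of_notMem hi, add_smul, one_smul]
    rw [e1, e2] at h1
    have e3 : (∏ i ∈ s, f i) * f i = ∏ i ∈ insert i s, f i := by
      rw [Finset.prod_insert hi, mul_comm]
    rw [e3] at h1
    exact h1

/-- Linearly independent functions take arbitrary prescribed integrals. -/
lemma exists_dual {ι : Type} [Fintype ι] [DecidableEq ι] (φ : ι → Pt → ℂ)
    (hφ : LinearIndependent ℂ φ) (v : ι → ℂ) :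
    ∃ h : Meas, ∀ i, h.sum (fun p w => w * φ i p) = v i := by
  let T : Meas →ₗ[ℂ] (ι → ℂ) := LinearMap.pi (fun i =>
    Finsupp.lsum ℂ (fun p => (LinearMap.id : ℂ →ₗ[ℂ] ℂ).smulRight (φ i p)))
  have hT : ∀ h i, T h i = h.sum (fun p w => w * φ i p) := by
    intro h i
    simp only [T, LinearMap.pi_apply, Finsupp.lsum_apply]
    rfl
  have htop : LinearMap.range T = ⊤ := by
    by_contra hne
    obtain ⟨f, hf0, hf⟩ := Submodule.exists_le_ker_of_lt_top _ (lt_top_iff_ne_top.2 hne)
    apply hf0
    have hzero : ∀ i, f (Pi.single i 1) = 0 := by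
      apply Fintype.linearIndependent_iff.1 hφ
      funext p
      have h1 : f (T (Finsupp.single p 1)) = 0 := hf (LinearMap.mem_range_self T _)
      have h2 : T (Finsupp.single p 1) = ∑ i, φ i p • Pi.single i (1 : ℂ) := by
        funext j
        rw [hT, Finsupp.sum_single_index (by rw [zero_mul]), one_mul, Finset.sum_apply]
        rw [Finset.sum_eq_single j]
        · simp
        · intro i _ hij
          simp [hij.symm]
        · intro h
          exact absurd (Finset.mem_univ j) h
      rw [h2, map_sum] at h1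
      rw [Finset.sum_apply, Pi.zero_apply, ← h1]
      apply Finset.sum_congr rfl
      intro i _
      rw [map_smul, Pi.smul_apply, smul_eq_mul, smul_eq_mul, mul_comm]
    apply LinearMap.pi_ext'
    intro i
    ext
    simp [hzero i]
  obtain ⟨h, hh⟩ := LinearMap.range_eq_top.1 htop v
  exact ⟨h, fun i => by rw [← hT, hh]⟩

/-- ROW A4. -/
theorem corner_of
    (FF_multi : ∀ {N : ℕ} (t : Fin N × Fin N), Multi (60 * N) 5 (FF N t))
    (FF_semi : ∀ {N : ℕ} (t : Fin N × Fin N), Semi (fun _ => 100 * N) (FF N t))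
    (FF_symm : ∀ {N : ℕ} (t : Fin N × Fin N) (σ : Equiv.Perm (Fin 5)) (p : Fin 5 → Pt),
      evp (FF N t) (fun l => p (σ l)) = evp (FF N t) p)
    (FF_zero : ∀ {N : ℕ} (t : Fin N × Fin N) (p : Fin 5 → Pt) {i j : Fin 5}, i ≠ j →
      p i = p j → evp (FF N t) p = 0)
    (FF_indep : ∀ N : ℕ,
      LinearIndependent ℂ (fun t : Fin N × Fin N => fun p : Pt => evp (FF N t) (five p)))
    (integ_line : ∀ (F : (Fin 5 → Pt) → ℂ)
      (_ : ∀ (σ : Equiv.Perm (Fin 5)) (p : Fin 5 → Pt), F (fun l => p (σ l)) = F p)
      (_ : ∀ (p : Fin 5 → Pt) (i j : Fin 5), i ≠ j → p i = p j → F p = 0) (h : Meas),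
      ∃ R : Polynomial ℂ, ∀ τ : ℂ,
        integ ((∑ k : Fin 4, Finsupp.single (frame k) (1 : ℂ)) + τ • h) F =
          τ * (120 * (h.sum fun p w => w * F (five p)) + τ * R.eval τ))
    {N m : ℕ} (hm : 2 * m ≤ N * N) :
    2 ^ m ≤ plethMult (5 * m) (60 * N) 3 (fun _ => 100 * N * m) := by
  classical
  obtain ⟨e⟩ : Nonempty (Fin m × Fin 2 ↪ Fin N × Fin N) := by
    apply Function.Embedding.nonempty_of_card_le
    rw [Fintype.card_prod, Fintype.card_prod, Fintype.card_fin, Fintype.card_fin,
      Fintype.card_fin]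
    omega
  set G : Fin m × Fin 2 → (Fin 5 → Pt) → ℂ := fun r => fun p => evp (FF N (e r)) p with hG
  have hwf : ∀ r, HWF (60 * N) 5 (fun _ => 100 * N) (fun c => integ c (G r)) := fun r =>
    hwf_of (FF N (e r)) (FF_multi _) (FF_semi _)
  have hind : LinearIndependent ℂ (fun r => fun p : Pt => G r (five p)) :=
    (FF_indep N).comp e e.injective
  have h := card_le (a := 60 * N) (d := 5 * m) (lam := fun _ => 100 * N * m)
    (ι := Fin m → Fin 2) (fun ε => ∏ r, fun c => integ c (G (r, ε r))) (fun ε => by
      have := hwf_prod5 (Finset.univ : Finset (Fin m)) (fun _ => 100 * N)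
        (fun r => fun c => integ c (G (r, ε r))) (fun r => hwf (r, ε r))
      rw [Finset.card_univ, Fintype.card_fin] at this
      have e1 : (m • (fun _ => 100 * N) : Fin 3 → ℕ) = fun _ => 100 * N * m := by
        funext i
        rw [Pi.smul_apply, smul_eq_mul, mul_comm]
      rwa [e1] at this) ?_
  · rwa [Fintype.card_fun, Fintype.card_fin, Fintype.card_fin] at h
  · rw [Fintype.linearIndependent_iff]
    intro g hg ε₀
    obtain ⟨h, hh⟩ := exists_dual _ hind (fun r => if r.2 = ε₀ r.1 then 1 else 0)
    choose R hR using fun r => integ_line (G r) (fun σ p => FF_symm _ σ p)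
      (fun p i j hij hp => FF_zero _ p hij hp) h
    set c0 : Meas := ∑ k : Fin 4, Finsupp.single (frame k) (1 : ℂ) with hc0
    set P : Polynomial ℂ := ∑ ε : Fin m → Fin 2, Polynomial.C (g ε) *
      ∏ r : Fin m, (Polynomial.C (120 * (if ε r = ε₀ r then 1 else 0)) +
        Polynomial.X * R (r, ε r)) with hP
    have h1 : Polynomial.X ^ m * P = 0 := by
      apply Polynomial.funext
      intro τ
      have h2 := congrFun hg (c0 + τ • h)
      rw [Finset.sum_apply, Pi.zero_apply] at h2
      rw [Polynomial.eval_zero, ← h2, Polynomial.eval_mul, Polynomial.eval_pow,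
        Polynomial.eval_X, hP, Polynomial.eval_finsetSum, Finset.mul_sum]
      apply Finset.sum_congr rfl
      intro ε _
      rw [Pi.smul_apply, Finset.prod_apply, smul_eq_mul, Polynomial.eval_mul, Polynomial.eval_C,
        Polynomial.eval_prod, Finset.prod_congr rfl (fun r _ => hR (r, ε r) τ),
        Finset.prod_mul_distrib, Finset.prod_const, Finset.card_univ, Fintype.card_fin]
      rw [← mul_assoc, mul_comm (τ ^ m) (g ε), mul_assoc]
      congr 2
      apply Finset.prod_congr rfl
      intro r _
      rw [hh (r, ε r)]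
      simp only [Polynomial.eval_add, Polynomial.eval_mul, Polynomial.eval_C, Polynomial.eval_X]
    have h2 : P = 0 := by
      rcases mul_eq_zero.1 h1 with h3 | h3
      · exact absurd h3 (pow_ne_zero _ Polynomial.X_ne_zero)
      · exact h3
    have h3 : P.eval 0 = g ε₀ * 120 ^ m := by
      rw [hP, Polynomial.eval_finsetSum, Finset.sum_eq_single ε₀]
      · rw [Polynomial.eval_mul, Polynomial.eval_C, Polynomial.eval_prod]
        have h4 : ∀ r ∈ (Finset.univ : Finset (Fin m)),
            (Polynomial.C ((120 : ℂ) * (if ε₀ r = ε₀ r then 1 else 0)) +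
              Polynomial.X * R (r, ε₀ r)).eval 0 = 120 := by
          intro r _
          simp
        rw [Finset.prod_congr rfl h4, Finset.prod_const, Finset.card_univ, Fintype.card_fin]
      · intro ε _ hne
        obtain ⟨r, hr⟩ := Function.ne_iff.1 hne
        rw [Polynomial.eval_mul, Polynomial.eval_C, Polynomial.eval_prod,
          Finset.prod_eq_zero (Finset.mem_univ r), mul_zero]
        simp [hr]
      · intro h
        exact absurd (Finset.mem_univ ε₀) h
    rw [h2, Polynomial.eval_zero] at h3
    rcases mul_eq_zero.1 h3.symm with h4 | h4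
    · exact h4
    · exact absurd h4 (pow_ne_zero _ (by norm_num))

end Vale.Agent.P181.H188C
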