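import Vale.Agent.P181.R2.H188.CDefs
import Vale.Agent.P181.R2.H866.Heavy
import Vale.Agent.P181.R2.H240.Row3

/-!
# P181, cubic growth, row C2: the number of heavy slots

If `QQ s b F` and `s` slots of `F` are filled with multiples of `X 2 ^ (a + 1 - s)`, then `F`
vanishes.
-/

set_option autoImplicit false

open MvPolynomial

namespace Vale.Agent.P181.T3R

open Vale.Agent.P181 Vale.Agent.P181.H536 Vale.Agent.P181.H280

/-- McKay's lemma: `QQ 0 b F` forces `F` to vanish in degree `b`. -/
theorem van_of_QQ0 {a b : ℕ} (hab : a ≤ b) (F : Fm a) (hQ : QQ 0 b F) : Van b F := by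
  rcases Nat.eq_zero_or_pos a with rfl | ha
  · intro P hP
    obtain ⟨p, hp, hpe⟩ := hQ 0 (fun i => P i) (fun i => i.elim0)
    have h0 : p = 0 := by
      rw [← Polynomial.degree_eq_bot]
      by_contra hne
      have h1 : (0 : WithBot ℕ) ≤ p.degree := Polynomial.zero_le_degree_iff.2 (by
        intro h; apply hne; rw [h, Polynomial.degree_zero])
      have h2 : p.degree < (0 : WithBot ℕ) := by simpa using hp
      exact absurd h1 (not_le.2 h2)
    have h3 := hpe 0
    rw [h0, Polynomial.eval_zero] at h3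
    rw [h3]
    congr 1
    funext i
    exact i.elim0
  have hb : 1 ≤ b := by omega
  have hz : ∀ (x c : ℂ) (h : Fin a → S3), Dg (b - 1) h →
      F (fun i => (ln x + c • X 2) * h i) = 0 := by
    intro x c h hh
    obtain ⟨p, hp, hpe⟩ := hQ x h hh
    have h0 : p = 0 := by
      rw [← Polynomial.degree_eq_bot]
      by_contra hne
      have h1 : (0 : WithBot ℕ) ≤ p.degree := Polynomial.zero_le_degree_iff.2 (by
        intro h; apply hne; rw [h, Polynomial.degree_zero])
      have h2 : p.degree < (0 : WithBot ℕ) := by simpa using hp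
      exact absurd h1 (not_le.2 h2)
    rw [← hpe, h0, Polynomial.eval_zero]
  have hgen : ∀ ξ ∈ linS 3, ∀ h : Fin a → S3, Dg (b - 1) h → F (fun i => ξ * h i) = 0 := by
    intro ξ hξ h hh
    obtain ⟨α, β, γ, rfl⟩ := linS3_mem hξ
    obtain ⟨P, hP⟩ := poly_exists F (fun i =>
      (Polynomial.C (α • X 0 + β • X 1 + γ • X 2 : S3) + Polynomial.X * Polynomial.C (X 0)) *
        Polynomial.C (h i))
    have hP' : ∀ e : ℂ, P.eval e = F (fun i => ((α • X 0 + β • X 1 + γ • X 2 : S3) + e • X 0) *
        h i) := by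
      intro e
      rw [hP]
      congr 1
      funext i
      rw [Polynomial.eval_mul, Polynomial.eval_add, Polynomial.eval_C, Polynomial.eval_mul,
        Polynomial.eval_X, Polynomial.eval_C, Polynomial.eval_C, Algebra.smul_def e (X 0 : S3)]
    have hP0 : P = 0 := by
      apply Polynomial.eq_of_infinite_eval_eq
      apply Set.Infinite.mono (s := ({-α} : Set ℂ)ᶜ)
      · intro e he
        rw [Set.mem_ofPred_eq, Polynomial.eval_zero, hP']
        have hne : α + e ≠ 0 := by
          intro hj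
          apply he
          rw [Set.mem_singleton_iff]
          linear_combination hj
        have h1 : ∀ i, ((α • X 0 + β • X 1 + γ • X 2 : S3) + e • X 0) * h i =
            (α + e) • ((ln (β / (α + e)) + (γ / (α + e)) • X 2) * h i) := by
          intro i
          rw [← smul_mul_assoc]
          congr 1
          rw [smul_add, ln, smul_add, smul_smul, smul_smul, mul_div_cancel₀ _ hne,
            mul_div_cancel₀ _ hne, add_smul]
          abel
        rw [show (fun i => ((α • X 0 + β • X 1 + γ • X 2 : S3) + e • X 0) * h i) =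
          fun i => (α + e) • ((ln (β / (α + e)) + (γ / (α + e)) • X 2) * h i) from funext h1,
          MultilinearMap.map_smul_univ, hz _ _ h hh, smul_zero]
      · exact (Set.finite_singleton _).infinite_compl
    have h3 := hP' 0
    rw [hP0, Polynomial.eval_zero] at h3
    rw [h3]
    congr 1
    funext i
    rw [zero_smul, add_zero]
  refine claimA (linS 3) F (fun _ => b) (fun _ => 1) ?_ ?_
  · intro j
    rw [Finset.sum_const, smul_eq_mul, mul_one, Fin.card_Iic]
    have := j.2
    omega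
  · intro ξ hξ P hP
    have := hgen ξ hξ P hP
    simpa only [pow_one] using this

/-- The heavy step for a general multiple of `X 2 ^ k`. -/
theorem heavyL {m b k s : ℕ} (hb : 1 ≤ b) (hs : 1 ≤ s) (hk : k ≤ b) (hks : m + 2 ≤ k + s)
    (F : Fm (m + 1)) (hQ : QQ s b F) {A : S3} (hA : A ∈ linS 3 ^ (b - k)) :
    QQ (s - 1) b (F.curryLeft (X 2 ^ k * A)) := by
  obtain ⟨b, rfl⟩ : ∃ b', b = b' + 1 := ⟨b - 1, by omega⟩
  obtain ⟨s, rfl⟩ : ∃ s', s = s' + 1 := ⟨s - 1, by omega⟩
  rw [QQ_iff_Dev] at hQ ⊢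
  rw [Nat.add_sub_cancel] at hQ ⊢
  exact R2.H866.heavy (X_mem_linS _) (X_mem_linS _) (X_mem_linS _) hQ (by omega) hk hA

/-- The first `s` slots are heavy. -/
theorem heavy_first {b n : ℕ} : ∀ (s a : ℕ), a = s + n → a ≤ b → ∀ F : Fm a, QQ s b F →
    ∀ P : Fin a → S3, Dg b P → (∀ i : Fin a, (i : ℕ) < s →
      ∃ Q ∈ linS 3 ^ (b - (n + 1)), P i = X 2 ^ (n + 1) * Q) → F P = 0 := by
  intro s
  induction s with
  | zero =>
    intro a _ hab F hQ P hP _
    exact van_of_QQ0 hab F hQ P hP
  | succ s ih =>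
    intro a ha hab F hQ P hP hz
    obtain ⟨m, rfl⟩ : ∃ m, a = m + 1 := ⟨s + n, by omega⟩
    obtain ⟨Q, hQm, hQe⟩ := hz 0 (by simp)
    have h1 : QQ s b (F.curryLeft (X 2 ^ (n + 1) * Q)) :=
      heavyL (by omega) (by omega) (by omega) (by omega) F hQ hQm
    have h2 := ih m (by omega) (by omega) _ h1 (fun i => P i.succ) (fun i => hP i.succ) (by
      intro i hi
      exact hz i.succ (by rw [Fin.val_succ]; omega))
    rw [MultilinearMap.curryLeft_apply, ← hQe] at h2
    rw [← h2]
    congr 1
    exact (Fin.cons_self_tail P).symm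

/-- **C2.** At most `s - 1` slots can be heavy. -/
theorem heavy_count {a b s : ℕ} (hsa : s ≤ a) (hab : a ≤ b) (F : Fm a) (hQ : QQ s b F)
    (P : Fin a → S3) (hP : Dg b P) (S : Finset (Fin a)) (hS : s ≤ S.card)
    (hz : ∀ i ∈ S, ∃ Q ∈ linS 3 ^ (b - (a + 1 - s)), P i = X 2 ^ (a + 1 - s) * Q) : F P = 0 := by
  classical
  obtain ⟨S', hS', hc⟩ := Finset.exists_subset_card_eq hS
  obtain ⟨n, rfl⟩ : ∃ n, a = s + n := ⟨a - s, by omega⟩
  have hc' : S'ᶜ.card = n := by
    rw [Finset.card_compl, Fintype.card_fin, hc]; omega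
  let σ : Fin (s + n) ≃ Fin (s + n) := finSumFinEquiv.symm.trans (finSumEquivOfFinset hc hc')
  have hσ : ∀ i : Fin (s + n), (i : ℕ) < s → σ i ∈ S' := by
    intro i hi
    have h1 : i = Fin.castAdd n ⟨i, hi⟩ := by ext; rfl
    rw [h1]
    simp only [σ, Equiv.trans_apply, finSumFinEquiv_symm_apply_castAdd,
      finSumEquivOfFinset_inl]
    exact Finset.orderEmbOfFin_mem _ _ _
  let F' : Fm (s + n) := F.domDomCongr σ.symm
  have hF' : ∀ v : Fin (s + n) → S3, F' v = F (fun i => v (σ.symm i)) := fun v => rfl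
  have hQ' : QQ s b F' := by
    intro x h hh
    obtain ⟨p, hp, hpe⟩ := hQ x (fun i => h (σ.symm i)) (fun i => hh _)
    exact ⟨p, hp, fun c => by rw [hpe, hF']⟩
  have h1 := heavy_first (n := n) s (s + n) rfl hab F' hQ' (fun i => P (σ i)) (fun i => hP _) (by
    intro i hi
    have h2 := hz (σ i) (hS' (hσ i hi))
    have e : s + n + 1 - s = n + 1 := by omega
    rw [e] at h2
    exact h2)
  rw [hF'] at h1
  simpa using h1

end Vale.Agent.P181.T3R
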