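import Vale.Agent.P181.R2.H188.Dom
import Vale.Agent.P181.R2.H188.Heavy

/-!
# P181, cubic growth, row C3: Lemma II

A form which is invariant under both shears, has large weight `t` and satisfies `QQ s`, is zero.
The slots are opened one after the other; the slots with `θ` factors `X 2` stay free.
-/

set_option autoImplicit false

open MvPolynomial

namespace Vale.Agent.P181.T3R

open Vale.Agent.P181 Vale.Agent.P181.H536 Vale.Agent.P181.H280 Vale.Agent.P181.H240
open Vale.Agent.P181.T3R.H572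

namespace H188

/-- A shear in `X 1` changes a binary form by multiples of `X 2`. -/
lemma sh1_sub {d : ℕ} (ε : ℂ) {A : S3} (hA : A ∈ U2 ^ d) :
    sh1 ε A - A ∈ Submodule.span ℂ (Pc d 1) := by
  induction d generalizing A with
  | zero =>
    rw [pow_zero, Submodule.mem_one] at hA
    obtain ⟨r, rfl⟩ := hA
    rw [AlgHom.commutes, sub_self]
    exact Submodule.zero_mem _
  | succ d ih =>
    rw [pow_succ] at hA
    induction hA using Submodule.mul_induction_on' with
    | mem_mul_mem x hx y hy =>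
      obtain ⟨α, β, rfl⟩ := Submodule.mem_span_pair.1 hy
      have e : sh1 ε (α • X 0 + β • X 1) = (α • X 0 + β • X 1 : S3) + (β * ε) • X 2 := by
        rw [map_add, map_smul, map_smul, sh1_X0, sh1_X1, smul_add, smul_smul]
        ring
      have e2 : sh1 ε (x * (α • X 0 + β • X 1)) - x * (α • X 0 + β • X 1) =
          (sh1 ε x - x) * (α • X 0 + β • X 1) + (β * ε) • (x * X 2) +
            (β * ε) • ((sh1 ε x - x) * X 2) := by
        rw [map_mul, e]
        simp only [Algebra.smul_def]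
        ring
      rw [e2]
      refine Submodule.add_mem _ (Submodule.add_mem _ (mul_U2 (ih hx) hy) ?_) ?_
      · exact Submodule.smul_mem _ _ (z_mul (pow_Pc hx))
      · exact Submodule.smul_mem _ _ (Pc_mono (z_mul (ih hx)))
    | add x _ y _ hx hy =>
      have : sh1 ε (x + y) - (x + y) = (sh1 ε x - x) + (sh1 ε y - y) := by
        rw [map_add]; ring
      rw [this]
      exact Submodule.add_mem _ hx hy

/-- Evaluation at a tuple. -/
noncomputable def evL {m : ℕ} (P : Fin m → S3) : Fm m →ₗ[ℂ] ℂ where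
  toFun G := G P
  map_add' _ _ := rfl
  map_smul' _ _ := rfl

/-- Filling in the first slot. -/
noncomputable def cur {m : ℕ} (w : S3) : Fm (m + 1) →ₗ[ℂ] Fm m where
  toFun G := G.curryLeft w
  map_add' _ _ := by ext; rfl
  map_smul' _ _ := by ext; rfl

/-- Multilinear maps in `h` free slots with values in the forms with `m` slots. -/
abbrev Bi (h m : ℕ) : Type := MultilinearMap ℂ (fun _ : Fin h => S3) (Fm m)

/-- Joint invariance. -/
def BInv (sg : ℂ → S3 →ₐ[ℂ] S3) (d b : ℕ) {h m : ℕ} (R : Bi h m) : Prop :=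
  ∀ (ε : ℂ) (B : Fin h → S3) (P : Fin m → S3), Dg d B → Dg b P →
    R (fun i => sg ε (B i)) (fun i => sg ε (P i)) = R B P

/-- Joint homogeneity. -/
def BHom (d b t : ℕ) {h m : ℕ} (R : Bi h m) : Prop :=
  ∀ c : ℂ, c ≠ 0 → ∀ (B : Fin h → S3) (P : Fin m → S3), Dg d B → Dg b P →
    R (fun i => tau c (B i)) (fun i => tau c (P i)) = c ^ t * R B P

/-- Fewer than `j` of the `m` slots can be multiples of `X 2 ^ θ`. -/
def BHc (j θ b : ℕ) {h m : ℕ} (R : Bi h m) : Prop :=
  ∀ (B : Fin h → S3) (P : Fin m → S3), Dg (b - θ) B → Dg b P → ∀ S : Finset (Fin m),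
    j ≤ S.card → (∀ i ∈ S, ∃ Q ∈ linS 3 ^ (b - θ), P i = X 2 ^ θ * Q) → R B P = 0

/-- The form with the first slot filled. -/
noncomputable def lightM {h m : ℕ} (R : Bi h (m + 1)) (w : S3) : Bi h m :=
  (cur w).compMultilinearMap R

lemma lightM_apply {h m : ℕ} (R : Bi h (m + 1)) (w : S3) (B : Fin h → S3) (P : Fin m → S3) :
    lightM R w B P = R B (Fin.cons w P) := rfl

/-- The form where the first slot is filled with `X 2 ^ θ * Q`, `Q` free. -/
noncomputable def heavyM {h m : ℕ} (θ : ℕ) (R : Bi h (m + 1)) : Bi (h + 1) m :=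
  LinearMap.uncurryLeft
    { toFun := fun Q : S3 => lightM R (X 2 ^ θ * Q)
      map_add' := by
        intro x y
        ext B P
        rw [MultilinearMap.add_apply, MultilinearMap.add_apply]
        change (R B).curryLeft (X 2 ^ θ * (x + y)) P =
          (R B).curryLeft (X 2 ^ θ * x) P + (R B).curryLeft (X 2 ^ θ * y) P
        rw [mul_add, map_add]
        rfl
      map_smul' := by
        intro c x
        ext B P
        change (R B).curryLeft (X 2 ^ θ * (c • x)) P = c • (R B).curryLeft (X 2 ^ θ * x) P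
        rw [mul_smul_comm, map_smul]
        rfl }

lemma heavyM_apply {h m : ℕ} (θ : ℕ) (R : Bi h (m + 1)) (B : Fin (h + 1) → S3)
    (P : Fin m → S3) : heavyM θ R B P = R (Fin.tail B) (Fin.cons (X 2 ^ θ * B 0) P) := rfl

lemma sub_cons {h m : ℕ} (R : Bi h (m + 1)) (B : Fin h → S3) (P : Fin m → S3) (w w' : S3) :
    R B (Fin.cons (w - w') P) = R B (Fin.cons w P) - R B (Fin.cons w' P) := by
  have : (R B).curryLeft (w - w') P = (R B).curryLeft w P - (R B).curryLeft w' P := by
    rw [map_sub]; rfl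
  exact this

lemma smul_cons {h m : ℕ} (R : Bi h (m + 1)) (B : Fin h → S3) (P : Fin m → S3) (c : ℂ) (w : S3) :
    R B (Fin.cons (c • w) P) = c * R B (Fin.cons w P) := by
  have : (R B).curryLeft (c • w) P = c * (R B).curryLeft w P := by
    rw [map_smul]; rfl
  exact this

lemma span_cons {h m : ℕ} (R : Bi h (m + 1)) (B : Fin h → S3) (P : Fin m → S3) {S : Set S3}
    (hS : ∀ w ∈ S, R B (Fin.cons w P) = 0) : ∀ w ∈ Submodule.span ℂ S,
    R B (Fin.cons w P) = 0 := by
  intro w hw
  induction hw using Submodule.span_induction with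
  | mem x hx => exact hS x hx
  | zero =>
    have := smul_cons R B P 0 0
    rwa [zero_smul, zero_mul] at this
  | add x y _ _ hx hy =>
    have e : x + y = x - ((-1 : ℂ) • y) := by rw [neg_one_smul]; ring
    rw [e, sub_cons, smul_cons, hx, hy, mul_zero, sub_zero]
  | smul c x _ hx => rw [smul_cons, hx, mul_zero]

lemma zk_span {b k : ℕ} (hk : k ≤ b) {w : S3} (hw : w ∈ Submodule.span ℂ (Pc (b - k) 1)) :
    X 2 ^ k * w ∈ Submodule.span ℂ (Pc b (k + 1)) := by
  induction hw using Submodule.span_induction with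
  | mem x hx =>
    obtain ⟨j, B, hl, hj, hB, rfl⟩ := hx
    refine Submodule.subset_span ⟨k + j, B, by omega, by omega, ?_, by ring⟩
    rwa [show b - (k + j) = b - k - j by omega]
  | zero => rw [mul_zero]; exact Submodule.zero_mem _
  | add x y _ _ hx hy => rw [mul_add]; exact Submodule.add_mem _ hx hy
  | smul c x _ hx => rw [mul_smul_comm]; exact Submodule.smul_mem _ _ hx

lemma zA_mem' {b k : ℕ} (hk : k ≤ b) {Q : S3} (hQ : Q ∈ linS 3 ^ (b - k)) :
    X 2 ^ k * Q ∈ linS 3 ^ b := by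
  have h1 : linS 3 ^ b = linS 3 ^ k * linS 3 ^ (b - k) := by
    rw [← pow_add]; congr 1; omega
  rw [h1]
  exact Submodule.mul_mem_mul (Submodule.pow_mem_pow _ (X_mem_linS _) _) hQ

section Step

variable {b θ h m : ℕ}

lemma lightM_inv {sg : ℂ → S3 →ₐ[ℂ] S3} (g1 : ∀ ε, sg ε (X 2) = X 2)
    (g2 : ∀ ε d P, P ∈ linS 3 ^ d → sg ε P ∈ linS 3 ^ d)
    (g3 : ∀ ε d A, A ∈ U2 ^ d → sg ε A - A ∈ Submodule.span ℂ (Pc d 1))
    (R : Bi h (m + 1)) (hI : BInv sg (b - θ) b R) {k : ℕ} (hk : k ≤ b)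
    (hT : ∀ w ∈ Submodule.span ℂ (Pc b (k + 1)), ∀ (B : Fin h → S3) (P : Fin m → S3),
      Dg (b - θ) B → Dg b P → R B (Fin.cons w P) = 0)
    {A : S3} (hA : A ∈ U2 ^ (b - k)) : BInv sg (b - θ) b (lightM R (X 2 ^ k * A)) := by
  intro ε B P hB hP
  rw [lightM_apply, lightM_apply]
  have h1 := hI ε B _ hB (cons_Dg (zA_mem hk hA) hP)
  rw [H572.map_cons (fun x => sg ε x) (X 2 ^ k * A) P, map_mul, map_pow, g1] at h1
  have h2 := hT _ (zk_span hk (g3 ε _ A hA)) (fun i => sg ε (B i)) (fun i => sg ε (P i))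
    (fun i => g2 ε _ _ (hB i)) (fun i => g2 ε _ _ (hP i))
  rw [mul_sub, sub_cons, sub_eq_zero] at h2
  rw [← h2, h1]

lemma lightM_hom {t : ℕ} (R : Bi h (m + 1)) (hH : BHom (b - θ) b t R) {k : ℕ} (hk : k ≤ b)
    (hkt : k ≤ t) {A : S3} (hA : A ∈ U2 ^ (b - k)) :
    BHom (b - θ) b (t - k) (lightM R (X 2 ^ k * A)) := by
  intro c hc B P hB hP
  rw [lightM_apply, lightM_apply]
  have h1 := hH c hc B _ hB (cons_Dg (zA_mem hk hA) hP)
  rw [H572.map_cons (fun x => tau c x) (X 2 ^ k * A) P, map_mul, map_pow, tau_X2, tau_U2 c hA,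
    smul_pow, smul_mul_assoc, smul_cons] at h1
  have h2 : c ^ t = c ^ k * c ^ (t - k) := by rw [← pow_add]; congr 1; omega
  rw [h2, mul_assoc] at h1
  exact mul_left_cancel₀ (pow_ne_zero k hc) h1

lemma lightM_hc {j : ℕ} (R : Bi h (m + 1)) (hR : BHc j θ b R) {w : S3} (hw : w ∈ linS 3 ^ b) :
    BHc j θ b (lightM R w) := by
  intro B P hB hP S hS hz
  rw [lightM_apply]
  refine hR B _ hB (cons_Dg hw hP) (S.map (Fin.succEmb m)) (by rwa [Finset.card_map]) ?_
  intro i hi
  obtain ⟨i', hi', rfl⟩ := Finset.mem_map.1 hi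
  rw [Fin.coe_succEmb, Fin.cons_succ]
  exact hz i' hi'

lemma heavyM_inv {sg : ℂ → S3 →ₐ[ℂ] S3} (g1 : ∀ ε, sg ε (X 2) = X 2) (hθ : θ ≤ b)
    (R : Bi h (m + 1)) (hI : BInv sg (b - θ) b R) : BInv sg (b - θ) b (heavyM θ R) := by
  intro ε B P hB hP
  rw [heavyM_apply, heavyM_apply]
  have h1 := hI ε (Fin.tail B) _ (fun i => hB i.succ) (cons_Dg (zA_mem' hθ (hB 0)) hP)
  rw [H572.map_cons (fun x => sg ε x) (X 2 ^ θ * B 0) P, map_mul, map_pow, g1] at h1
  exact h1

lemma heavyM_hom {t : ℕ} (hθ : θ ≤ b) (hθt : θ ≤ t) (R : Bi h (m + 1))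
    (hH : BHom (b - θ) b t R) : BHom (b - θ) b (t - θ) (heavyM θ R) := by
  intro c hc B P hB hP
  rw [heavyM_apply, heavyM_apply]
  have h1 := hH c hc (Fin.tail B) _ (fun i => hB i.succ) (cons_Dg (zA_mem' hθ (hB 0)) hP)
  rw [H572.map_cons (fun x => tau c x) (X 2 ^ θ * B 0) P, map_mul, map_pow, tau_X2,
    smul_pow, smul_mul_assoc, smul_cons] at h1
  have h2 : c ^ t = c ^ θ * c ^ (t - θ) := by rw [← pow_add]; congr 1; omega
  rw [h2, mul_assoc] at h1
  exact mul_left_cancel₀ (pow_ne_zero θ hc) h1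

lemma heavyM_hc {j : ℕ} (hθ : θ ≤ b) (R : Bi h (m + 1)) (hR : BHc (j + 1) θ b R) :
    BHc j θ b (heavyM θ R) := by
  intro B P hB hP S hS hz
  rw [heavyM_apply]
  refine hR (Fin.tail B) _ (fun i => hB i.succ) (cons_Dg (zA_mem' hθ (hB 0)) hP)
    (Finset.cons 0 (S.map (Fin.succEmb m)) (by simp)) ?_ ?_
  · rw [Finset.card_cons, Finset.card_map]; omega
  · intro i hi
    rw [Finset.mem_cons] at hi
    rcases hi with rfl | hi
    · exact ⟨B 0, hB 0, by rw [Fin.cons_zero]⟩
    · obtain ⟨i', hi', rfl⟩ := Finset.mem_map.1 hi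
      rw [Fin.coe_succEmb, Fin.cons_succ]
      exact hz i' hi'

end Step

/-- The induction on the number of closed slots. -/
theorem core {b θ : ℕ} (hθ : 1 ≤ θ) (hθb : θ ≤ b) : ∀ (m h j t : ℕ) (R : Bi h m),
    BInv sh (b - θ) b R → BInv sh1 (b - θ) b R → BHom (b - θ) b t R → BHc j θ b R →
    (j = 0 ∨ h * (b - θ) + (j - 1) * (b - θ + 3) + 3 * (m * (θ - 1)) < 3 * t) →
    ∀ (B : Fin h → S3) (P : Fin m → S3), Dg (b - θ) B → Dg b P → R B P = 0 := by
  intro m
  induction m with
  | zero =>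
    intro h j t R hI hI1 hH hc hcond B P hB hP
    rcases hcond with rfl | hcond
    · exact hc B P hB hP ∅ (by simp) (by simp)
    · have hcond' : h * (b - θ) < 3 * t := by omega
      refine dom (m := h) (d := b - θ) (t := t) ((evL P).compMultilinearMap R) ?_ ?_ ?_ hcond' B hB
      · intro ε B' hB'
        have h1 := hI ε B' P hB' hP
        change R (fun i => sh ε (B' i)) P = R B' P
        rw [← h1]
        congr 1
        funext i
        exact i.elim0
      · intro ε B' hB'
        have h1 := hI1 ε B' P hB' hP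
        change R (fun i => sh1 ε (B' i)) P = R B' P
        rw [← h1]
        congr 1
        funext i
        exact i.elim0
      · intro c hc' B' hB'
        have h1 := hH c hc' B' P hB' hP
        change R (fun i => tau c (B' i)) P = c ^ t * R B' P
        rw [← h1]
        congr 1
        funext i
        exact i.elim0
  | succ m ih =>
    intro h j t R hI hI1 hH hc hcond B P hB hP
    rcases hcond with rfl | hcond
    · exact hc B P hB hP ∅ (by simp) (by simp)
    rcases Nat.eq_zero_or_pos j with rfl | hj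
    · exact hc B P hB hP ∅ (by simp) (by simp)
    obtain ⟨j, rfl⟩ : ∃ j', j = j' + 1 := ⟨j - 1, by omega⟩
    rw [Nat.add_sub_cancel] at hcond
    obtain ⟨θ', rfl⟩ : ∃ θ', θ = θ' + 1 := ⟨θ - 1, by omega⟩
    rw [Nat.add_sub_cancel] at hcond ih
    have hcond1 : h * (b - (θ' + 1)) + j * (b - (θ' + 1) + 3) + 3 * (m * θ') + 3 * θ' < 3 * t := by
      have : (m + 1) * θ' = m * θ' + θ' := by ring
      omega
    -- the heavy slots
    have hheavy : ∀ Q ∈ linS 3 ^ (b - (θ' + 1)), ∀ (B : Fin h → S3) (P : Fin m → S3),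
        Dg (b - (θ' + 1)) B → Dg b P → R B (Fin.cons (X 2 ^ (θ' + 1) * Q) P) = 0 := by
      intro Q hQ B P hB hP
      have hB' : Dg (b - (θ' + 1)) (Fin.cons Q B : Fin (h + 1) → S3) := cons_Dg hQ hB
      have hgoal : heavyM (θ' + 1) R (Fin.cons Q B) P = 0 := by
        rcases Nat.eq_zero_or_pos j with rfl | hj
        · exact heavyM_hc hθb R hc _ P hB' hP ∅ (by simp) (by simp)
        · have hj1 : 3 ≤ j * (b - (θ' + 1) + 3) := by nlinarith
          refine ih (h + 1) j (t - (θ' + 1)) (heavyM (θ' + 1) R)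
            (heavyM_inv sh_X2 hθb R hI) (heavyM_inv sh1_X2 hθb R hI1)
            (heavyM_hom hθb (by omega) R hH) (heavyM_hc hθb R hc) (Or.inr ?_) _ P hB' hP
          obtain ⟨j, rfl⟩ : ∃ j', j = j' + 1 := ⟨j - 1, by omega⟩
          rw [Nat.add_sub_cancel]
          have e1 : (h + 1) * (b - (θ' + 1)) = h * (b - (θ' + 1)) + (b - (θ' + 1)) := by ring
          have e2 : (j + 1) * (b - (θ' + 1) + 3) = j * (b - (θ' + 1) + 3) + (b - (θ' + 1) + 3) := by
            ring
          omega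
      rw [heavyM_apply, Fin.tail_cons, Fin.cons_zero] at hgoal
      exact hgoal
    -- descending induction on the exponent
    have hdesc : ∀ l : ℕ, l ≤ θ' + 1 → ∀ w ∈ Submodule.span ℂ (Pc b (θ' + 1 - l)),
        ∀ (B : Fin h → S3) (P : Fin m → S3),
        Dg (b - (θ' + 1)) B → Dg b P → R B (Fin.cons w P) = 0 := by
      intro l
      induction l with
      | zero =>
        intro _ w hw B P hB hP
        refine span_cons R B P ?_ w hw
        rintro _ ⟨i, A, hi, hib, hA, rfl⟩
        rw [Nat.sub_zero] at hi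
        have e : X 2 ^ i * A = X 2 ^ (θ' + 1) * (X 2 ^ (i - (θ' + 1)) * A) := by
          rw [← mul_assoc, ← pow_add]; congr 2; omega
        rw [e]
        refine hheavy _ ?_ B P hB hP
        refine zA_mem (k := i - (θ' + 1)) (by omega) ?_
        rwa [show b - (θ' + 1) - (i - (θ' + 1)) = b - i by omega]
      | succ l ihl =>
        intro hl w hw B P hB hP
        have ihl' := ihl (by omega)
        rw [show θ' + 1 - l = (θ' + 1 - (l + 1)) + 1 by omega] at ihl'
        obtain ⟨k, hk⟩ : ∃ k, k = θ' + 1 - (l + 1) := ⟨_, rfl⟩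
        rw [← hk] at hw ihl'
        refine span_cons R B P ?_ w hw
        rintro _ ⟨i, A, hi, hib, hA, rfl⟩
        rcases Nat.lt_or_ge k i with h1 | h1
        · exact ihl' _ (Submodule.subset_span ⟨i, A, by omega, hib, hA, rfl⟩) B P hB hP
        · obtain rfl : i = k := by omega
          have hgoal := ih h (j + 1) (t - i) (lightM R (X 2 ^ i * A))
            (lightM_inv sh_X2 (fun ε d P hP => sh_mem ε hP) (fun ε d A hA => sh_sub ε hA) R hI hib
              ihl' hA)
            (lightM_inv sh1_X2 (fun ε d P hP => sh1_mem ε hP) (fun ε d A hA => sh1_sub ε hA) R hI1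
              hib ihl' hA)
            (lightM_hom R hH hib (by omega) hA) (lightM_hc R hc (zA_mem hib hA))
            (Or.inr (by rw [Nat.add_sub_cancel]; omega)) B P hB hP
          exact hgoal
    have h1 := hdesc (θ' + 1) le_rfl (P 0) (by rw [Nat.sub_self]; exact linS_Pc b (hP 0)) B
      (Fin.tail P) hB (fun i => hP i.succ)
    rwa [Fin.cons_self_tail] at h1

end H188

open H188

/-- **C3 (Lemma II).** -/
theorem LL2_of {s a b t : ℕ} (hs : 1 ≤ s) (hsa : s ≤ a) (hab : a ≤ b)
    (h : (s - 1) * (b + 2) + 3 * (a * (a - 1)) < 3 * t) : LL2 s a b t := by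
  intro F _ hI hI1 hH hQ P hP
  obtain ⟨r, rfl⟩ : ∃ r, a = s + r := ⟨a - s, by omega⟩
  have hθ : s + r + 1 - s = r + 1 := by omega
  let R : Bi 0 (s + r) := MultilinearMap.constOfIsEmpty ℂ _ F
  have hR : ∀ B P, R B P = F P := fun B P => rfl
  have h1 := core (b := b) (θ := r + 1) (by omega) (by omega) (s + r) 0 s t R ?_ ?_ ?_ ?_
    (Or.inr ?_) (fun i => i.elim0) P (fun i => i.elim0) hP
  · rwa [hR] at h1
  · intro ε B P _ hP
    rw [hR, hR]; exact hI ε P hP
  · intro ε B P _ hP
    rw [hR, hR]; exact hI1 ε P hP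
  · intro c hc B P _ hP
    rw [hR, hR]; exact hH c hc P hP
  · intro B P _ hP S hS hz
    rw [hR]
    refine heavy_count hsa hab F hQ P hP S hS ?_
    rw [hθ]
    exact hz
  · obtain ⟨s, rfl⟩ : ∃ s', s = s' + 1 := ⟨s - 1, by omega⟩
    obtain ⟨c, rfl⟩ : ∃ c, b = s + 1 + r + c := ⟨b - (s + 1 + r), by omega⟩
    rw [zero_mul, zero_add, Nat.add_sub_cancel, Nat.add_sub_cancel]
    rw [Nat.add_sub_cancel, show s + 1 + r - 1 = s + r by omega] at h
    rw [show s + 1 + r + c - (r + 1) = s + c by omega]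
    nlinarith [Nat.zero_le s, Nat.zero_le r, Nat.zero_le c, Nat.zero_le (s * r)]

end Vale.Agent.P181.T3R
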