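import Vale.Agent.P181.R2.H188.CDefs
import Vale.Agent.P181.R2.H240.LemmaI
import Vale.Agent.P181.R2.H572.Sl2B
import Vale.Agent.P181.R2.H572.Curry

/-!
# P181, cubic growth, row C1: dominance

A form on `m` slots of degree `d`, invariant under both shears and of weight `t`, is zero if
`m d < 3 t`.
-/

set_option autoImplicit false

open MvPolynomial

namespace Vale.Agent.P181.T3R

open Vale.Agent.P181 Vale.Agent.P181.H536 Vale.Agent.P181.H280 Vale.Agent.P181.H240

namespace H188

lemma zero_of_span_dep {κ : Type*} [Fintype κ] {M N : Type*} [AddCommGroup M] [Module ℂ M]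
    [AddCommGroup N] [Module ℂ N] (Φ : MultilinearMap ℂ (fun _ : κ => M) N) (S : κ → Set M)
    (h : ∀ w : κ → M, (∀ i, w i ∈ S i) → Φ w = 0) (w : κ → M)
    (hw : ∀ i, w i ∈ Submodule.span ℂ (S i)) : Φ w = 0 := by
  classical
  have h1 : ∀ i, ∃ l : S i →₀ ℂ, Finsupp.linearCombination ℂ (Subtype.val : S i → M) l = w i := by
    intro i
    rw [← Finsupp.mem_span_iff_linearCombination]
    exact hw i
  choose l hl using h1
  have h2 : w = fun i => ∑ r ∈ (l i).support, (l i r) • (r : M) := by
    funext i
    rw [← hl i, Finsupp.linearCombination_apply, Finsupp.sum]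
  rw [h2, MultilinearMap.map_sum_finset]
  apply Finset.sum_eq_zero
  intro r _
  rw [MultilinearMap.map_smul_univ, h _ (fun i => (r i).2), smul_zero]

/-- `u ^ (n - r) * z ^ r` is a combination of the powers `(u + c z) ^ n`. -/
lemma mem_span_pow (u z : S3) (n r : ℕ) (hr : r ≤ n) :
    u ^ (n - r) * z ^ r ∈ Submodule.span ℂ (Set.range fun c : ℂ => (u + c • z) ^ n) := by
  have key := coeff_mem_of_forall
    (Submodule.span ℂ (Set.range fun c : ℂ => (u + c • z) ^ n)) (n + 1)
    (fun j => (n.choose j : ℂ) • (z ^ j * u ^ (n - j))) ?_ r (by omega)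
  · have h2 : (n.choose r : ℂ) ≠ 0 := by
      exact_mod_cast (Nat.choose_pos hr).ne'
    have h3 := (Submodule.smul_mem_iff _ h2).1 key
    rwa [mul_comm]
  · intro t
    apply Submodule.subset_span
    refine ⟨t, ?_⟩
    simp only
    rw [add_comm u, add_pow]
    apply Finset.sum_congr rfl
    intro j _
    simp only [Algebra.smul_def, map_natCast, map_pow]
    ring

section Half

variable {m d t : ℕ}

lemma slot_mem {u v z : S3} (hu : u ∈ linS 3) (hv : v ∈ linS 3) (hz : z ∈ linS 3) {q : ℕ}
    (hq : q ≤ d) (c : ℂ) : v ^ q * (u + c • z) ^ (d - q) ∈ linS 3 ^ d := by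
  have h1 : linS 3 ^ d = linS 3 ^ q * linS 3 ^ (d - q) := by
    rw [← pow_add]; congr 1; omega
  rw [h1]
  exact Submodule.mul_mem_mul (Submodule.pow_mem_pow _ hv _)
    (Submodule.pow_mem_pow _ ((linS 3).add_mem hu ((linS 3).smul_mem _ hz)) _)

/-- The half of the dominance inequality coming from one shear. -/
lemma half (F : Fm m) (u v z : S3) (hu : u ∈ linS 3) (hv : v ∈ linS 3) (hz : z ∈ linS 3)
    (sg : ℂ → S3 →ₐ[ℂ] S3) (s1 : ∀ e, sg e u = u + e • z) (s2 : ∀ e, sg e v = v)
    (s3 : ∀ e, sg e z = z)
    (hI : ∀ (e : ℂ) (P : Fin m → S3), Dg d P → F (fun i => sg e (P i)) = F P)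
    (tc : ℂ → S3 →ₐ[ℂ] S3) (t1 : ∀ c, tc c u = u) (t2 : ∀ c, tc c v = v)
    (t3 : ∀ c, tc c z = c • z)
    (hH : ∀ c : ℂ, c ≠ 0 → ∀ P : Fin m → S3, Dg d P → F (fun i => tc c (P i)) = c ^ t * F P)
    (q : Fin m → ℕ) (hq : ∀ i, q i ≤ d) (hlt : ∑ i, (d - q i) < 2 * t) (r : Fin m → ℕ)
    (hr : ∀ i, r i ≤ d - q i) :
    F (fun i => v ^ q i * (u ^ (d - q i - r i) * z ^ r i)) = 0 := by
  classical
  obtain ⟨G, hG, hGd⟩ := mv_exists F
    (fun i => C (v ^ q i) * (C u + X i * C z) ^ (d - q i))
  have hG' : ∀ c : Fin m → ℂ, eval c G = F (fun i => v ^ q i * (u + c i • z) ^ (d - q i)) := by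
    intro c
    rw [hG]
    congr 1
    funext i
    simp only [map_mul, map_pow, map_add, evA_C, evA_X, Algebra.smul_def]
  have hmem : ∀ c : Fin m → ℂ, Dg d (fun i => v ^ q i * (u + c i • z) ^ (d - q i)) :=
    fun c i => slot_mem hu hv hz (hq i) (c i)
  have hdeg : ∀ j, degreeOf j G ≤ d - q j := by
    intro j
    refine (hGd j).trans ?_
    have h1 : ∀ i, degreeOf j (C (v ^ q i) * (C u + X i * C z) ^ (d - q i) :
        MvPolynomial (Fin m) S3) ≤ if i = j then d - q i else 0 := by
      intro i
      refine (degreeOf_mul_le _ _ _).trans ?_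
      rw [degreeOf_C, zero_add]
      refine (degreeOf_pow_le _ _ _).trans ?_
      have h2 : degreeOf j (C u + X i * C z : MvPolynomial (Fin m) S3) ≤ if i = j then 1 else 0 := by
        refine (degreeOf_add_le _ _ _).trans ?_
        rw [degreeOf_C]
        refine max_le (Nat.zero_le _) ((degreeOf_mul_le _ _ _).trans ?_)
        rw [degreeOf_C, add_zero, degreeOf_X]
        by_cases hij : i = j
        · rw [if_pos hij, if_pos hij.symm]
        · rw [if_neg hij, if_neg (Ne.symm hij)]
      refine (Nat.mul_le_mul_left _ h2).trans ?_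
      by_cases hij : i = j
      · rw [if_pos hij, if_pos hij, mul_one]
      · rw [if_neg hij, if_neg hij, mul_zero]
    refine (Finset.sum_le_sum fun i _ => h1 i).trans ?_
    rw [Finset.sum_ite_eq' Finset.univ j (fun i => d - q i), if_pos (Finset.mem_univ j)]
  have hhom : G.IsHomogeneous t := by
    apply isHomogeneous_of_scaling
    intro c l hl
    rw [hG', hG', ← hH l hl _ (hmem c)]
    congr 1
    funext i
    rw [map_mul, map_pow, map_pow, map_add, map_smul, t1, t2, t3, smul_smul, mul_comm l]
  have hinv : ∀ (ε : ℂ) (c : Fin m → ℂ), eval (fun i => c i + ε) G = eval c G := by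
    intro e c
    rw [hG', hG', ← hI e _ (hmem c)]
    congr 1
    funext i
    rw [map_mul, map_pow, map_pow, map_add, map_smul, s1, s2, s3, add_smul]
    congr 2
    abel
  have hG0 : G = 0 := by
    apply R2.H572.Blk.sl2_block (σ := Fin m) (ι := Fin m) id id (fun _ => rfl) (fun j => d - q j)
      (t := t) (l := t) G
    · intro n hn j
      have h1 : ∑ i with id i = j, n i = n j := by
        rw [Finset.sum_filter]
        simp
      rw [h1]
      exact (degreeOf_le_iff.1 (hdeg j)) n hn
    · intro n hn
      have h1 := hhom (mem_support_iff.1 hn)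
      rw [← h1, Finsupp.weight_apply, Finsupp.sum_fintype _ _ (by simp)]
      simp
    · intro n hn
      have h1 := hhom (mem_support_iff.1 hn)
      rw [← h1, Finsupp.weight_apply, Finsupp.sum_fintype _ _ (by simp)]
      simp
    · intro ε c
      have : (fun i => if i = id (id i) then c i + ε else c i) = fun i => c i + ε := by
        funext i; simp
      rw [this]
      exact hinv ε c
    · omega
  -- extraction of the coefficients
  have hz0 : ∀ c : Fin m → ℂ, F (fun i => v ^ q i * (u + c i • z) ^ (d - q i)) = 0 := by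
    intro c
    rw [← hG', hG0, map_zero]
  refine zero_of_span_dep F
    (fun i => Set.range fun c : ℂ => v ^ q i * (u + c • z) ^ (d - q i)) ?_ _ ?_
  · intro w hw
    choose c hc using hw
    rw [← hz0 c]
    congr 1
    funext i
    exact (hc i).symm
  · intro i
    have h1 := mem_span_pow u z (d - q i) (r i) (hr i)
    have h2 : (Submodule.span ℂ (Set.range fun c : ℂ => (u + c • z) ^ (d - q i))).map
        (LinearMap.mulLeft ℂ (v ^ q i)) ≤
        Submodule.span ℂ (Set.range fun c : ℂ => v ^ q i * (u + c • z) ^ (d - q i)) := by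
      rw [Submodule.map_span, Submodule.span_le]
      rintro _ ⟨_, ⟨c, rfl⟩, rfl⟩
      exact Submodule.subset_span ⟨c, rfl⟩
    exact h2 ⟨_, h1, rfl⟩

end Half

/-- Monomials of degree `d`. -/
lemma linS_mono (d : ℕ) : linS 3 ^ d ≤ Submodule.span ℂ
    {w : S3 | ∃ p q r : ℕ, p + q + r = d ∧ w = X 0 ^ p * X 1 ^ q * X 2 ^ r} := by
  induction d with
  | zero =>
    rw [pow_zero, Submodule.one_eq_span, Submodule.span_le]
    rintro _ rfl
    exact Submodule.subset_span ⟨0, 0, 0, rfl, by simp⟩
  | succ d ih =>
    rw [pow_succ, Submodule.mul_le]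
    intro x hx y hy
    have hx' := ih hx
    clear hx
    rw [linS] at hy
    induction hx' using Submodule.span_induction with
    | mem x hx2 =>
      obtain ⟨p, q, r, hpq, rfl⟩ := hx2
      induction hy using Submodule.span_induction with
      | mem v hv =>
        obtain ⟨i, rfl⟩ := hv
        fin_cases i
        · exact Submodule.subset_span ⟨p + 1, q, r, by omega, by
            simp only [Fin.zero_eta, Fin.isValue]; ring⟩
        · exact Submodule.subset_span ⟨p, q + 1, r, by omega, by
            simp only [Fin.mk_one, Fin.isValue]; ring⟩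
        · exact Submodule.subset_span ⟨p, q, r + 1, by omega, by
            simp only [Fin.reduceFinMk, Fin.isValue]; ring⟩
      | zero => rw [mul_zero]; exact Submodule.zero_mem _
      | add v v' _ _ h h' => rw [mul_add]; exact Submodule.add_mem _ h h'
      | smul r v _ h => rw [mul_smul_comm]; exact Submodule.smul_mem _ _ h
    | zero => rw [zero_mul]; exact Submodule.zero_mem _
    | add v v' _ _ h h' => rw [add_mul]; exact Submodule.add_mem _ h h'
    | smul r v _ h => rw [smul_mul_assoc]; exact Submodule.smul_mem _ _ h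

end H188

open H188

/-- **Dominance.** A form on `m` slots of degree `d`, invariant under both shears and of weight
`t`, is zero if `m d < 3 t`. -/
theorem dom {m d t : ℕ} (F : Fm m) (hI : Inv d F) (hI1 : Inv1 d F) (hH : Hom d t F)
    (h : m * d < 3 * t) : Van d F := by
  intro P hP
  refine H572.zero_of_span (S := {w : S3 | ∃ p q r : ℕ, p + q + r = d ∧
    w = X 0 ^ p * X 1 ^ q * X 2 ^ r}) F ?_ P (fun i => linS_mono d (hP i))
  intro w hw
  choose p q r hpq hw' using hw
  have hDg : Dg d w := by
    intro i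
    have h1 : linS 3 ^ d = linS 3 ^ p i * linS 3 ^ q i * linS 3 ^ r i := by
      rw [← pow_add, ← pow_add, hpq i]
    rw [hw' i, h1]
    exact Submodule.mul_mem_mul (Submodule.mul_mem_mul (Submodule.pow_mem_pow _ (X_mem_linS _) _)
      (Submodule.pow_mem_pow _ (X_mem_linS _) _)) (Submodule.pow_mem_pow _ (X_mem_linS _) _)
  by_cases hr : ∑ i, r i = t
  · by_cases h1 : ∑ i, (d - q i) < 2 * t
    · have h2 := half F (X 0) (X 1) (X 2) (X_mem_linS _) (X_mem_linS _) (X_mem_linS _) sh sh_X0
        sh_X1 sh_X2 hI tau tau_X0 tau_X1 tau_X2 hH q (fun i => by have := hpq i; omega) h1 r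
        (fun i => by have := hpq i; omega)
      rw [← h2]
      congr 1
      funext i
      rw [hw' i, show d - q i - r i = p i by have := hpq i; omega]
      ring
    · by_cases h3 : ∑ i, (d - p i) < 2 * t
      · have h2 := half F (X 1) (X 0) (X 2) (X_mem_linS _) (X_mem_linS _) (X_mem_linS _) sh1
          sh1_X1 sh1_X0 sh1_X2 hI1 tau tau_X1 tau_X0 tau_X2 hH p
          (fun i => by have := hpq i; omega) h3 r (fun i => by have := hpq i; omega)
        rw [← h2]
        congr 1
        funext i
        rw [hw' i, show d - p i - r i = q i by have := hpq i; omega]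
        ring
      · exfalso
        have h4 : ∑ i, (d - q i) + ∑ i, (d - p i) = ∑ _i : Fin m, d + ∑ i, r i := by
          rw [← Finset.sum_add_distrib, ← Finset.sum_add_distrib]
          apply Finset.sum_congr rfl
          intro i _
          have := hpq i
          omega
        rw [Finset.sum_const, Finset.card_univ, Fintype.card_fin, smul_eq_mul, hr] at h4
        omega
  · have h2 := hH 2 two_ne_zero w hDg
    have e : (fun i => tau 2 (w i)) = fun i => ((2 : ℂ) ^ r i) • w i := by
      funext i
      rw [hw' i, map_mul, map_mul, map_pow, map_pow, map_pow, tau_X0, tau_X1, tau_X2, smul_pow,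
        mul_smul_comm]
    rw [e, MultilinearMap.map_smul_univ, Finset.prod_pow_eq_pow_sum, smul_eq_mul] at h2
    by_contra hne
    have h3 := mul_right_cancel₀ hne h2
    have h4 : (2 : ℕ) ^ (∑ i : Fin m, r i) = 2 ^ t := by exact_mod_cast h3
    exact hr (Nat.pow_right_injective le_rfl h4)

end Vale.Agent.P181.T3R
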