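import Vale.Agent.P181.R2.H182.VDefs
import Vale.Agent.P181.R2.H188.W2

set_option autoImplicit false

open scoped TensorProduct

namespace Vale.Agent.P181.H188V

open Vale.Agent.P181 Vale.Agent.P181.H280 Vale.Agent.P181.FR Vale.Agent.P181.H188W
  Vale.Agent.P181.VT MvPolynomial

/-! ### Coordinate monomials span `MP` -/

lemma exists_word {m : ℕ} (d : Fin m → ℕ) : ∃ s : Fin (∑ l, d l) → Fin m,
    ∀ x : Fin m → ℂ, ∏ t, x (s t) = ∏ l, x l ^ d l := by
  refine ⟨fun t => (finSigmaFinEquiv.symm t).1, fun x => ?_⟩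
  rw [Equiv.prod_comp finSigmaFinEquiv.symm (fun σ : (l : Fin m) × Fin (d l) => x σ.1),
    Fintype.prod_sigma]
  apply Finset.prod_congr rfl
  intro l _
  have h : ∀ y : Fin (d l), x (⟨l, y⟩ : (l : Fin m) × Fin (d l)).fst = x l := fun _ => rfl
  rw [Finset.prod_congr rfl (fun y _ => h y), Finset.prod_const, Finset.card_univ,
    Fintype.card_fin]

lemma exists_words {r c : ℕ} (q : MvPolynomial (Fin (r + 1)) ℂ) (hq : q.IsHomogeneous c) :
    ∃ s : (Fin (r + 1) →₀ ℕ) → Fin c → Fin (r + 1), ∀ x : Fin (r + 1) → ℂ,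
      eval x q = ∑ d ∈ q.support, coeff d q * ∏ t, x (s d t) := by
  classical
  have hex : ∀ d : Fin (r + 1) →₀ ℕ, ∃ s : Fin c → Fin (r + 1), d ∈ q.support →
      ∀ x : Fin (r + 1) → ℂ, ∏ t, x (s t) = ∏ l, x l ^ d l := by
    intro d
    by_cases hd : d ∈ q.support
    · have h1 : ∑ l, d l = c := by
        have h2 := hq (mem_support_iff.1 hd)
        rw [Finsupp.weight_apply, Finsupp.sum_fintype _ _ (fun i => by simp)] at h2
        simpa using h2
      obtain ⟨s, hs⟩ := exists_word (fun l => d l)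
      subst h1
      exact ⟨s, fun _ => hs⟩
    · exact ⟨fun _ => 0, fun h => absurd h hd⟩
  choose s hs using hex
  refine ⟨s, fun x => ?_⟩
  rw [eval_eq']
  apply Finset.sum_congr rfl
  intro d hd
  rw [hs d hd x]

/-- The coordinate monomials. -/
def mono {B m c : ℕ} (i : Fin B → Fin c → Fin m) : (Fin B → Fin m → ℂ) → ℂ :=
  fun p => ∏ j, ∏ t, p j (i j t)

lemma MP_le {B r c : ℕ} : MP B (r + 1) c ≤
    Submodule.span ℂ (Set.range (fun i : Fin B → Fin c → Fin (r + 1) => mono i)) := by
  classical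
  refine Submodule.span_le.2 ?_
  rintro G ⟨q, hq, rfl⟩
  choose s hs using fun j => exists_words (q j) (hq j)
  have h : (fun p : Fin B → Fin (r + 1) → ℂ => ∏ j, eval (p j) (q j)) =
      ∑ d ∈ Fintype.piFinset (fun j => (q j).support),
        (∏ j, coeff (d j) (q j)) • mono (fun j t => s j (d j) t) := by
    funext p
    rw [Finset.sum_apply, Finset.prod_congr rfl (fun j _ => hs j (p j)),
      Finset.prod_univ_sum]
    apply Finset.sum_congr rfl
    intro d _
    rw [Pi.smul_apply, smul_eq_mul, mono, Finset.prod_mul_distrib]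
  rw [h]
  exact Submodule.sum_mem _ (fun d _ => Submodule.smul_mem _ _
    (Submodule.subset_span ⟨_, rfl⟩))

/-! ### The entries of the frame -/

lemma const_MPd {B m : ℕ} (z : ℂ) : (fun _ : Fin B → Fin m → ℂ => z) ∈ MPd B m 0 := by
  have h : (fun _ : Fin B → Fin m → ℂ => z) = z • (1 : (Fin B → Fin m → ℂ) → ℂ) := by
    funext p
    rw [Pi.smul_apply, Pi.one_apply, smul_eq_mul, mul_one]
  rw [h]
  exact Submodule.smul_mem _ _ MPd_one

lemma det_MPd {B m n : ℕ} (d : Fin n → Fin B → ℕ)
    (M : Fin n → Fin n → (Fin B → Fin m → ℂ) → ℂ) (h : ∀ j l, M j l ∈ MPd B m (d j)) :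
    (fun p => Matrix.det (Matrix.of fun j l => M j l p)) ∈ MPd B m (∑ j, d j) := by
  classical
  have h0 : (fun p => Matrix.det (Matrix.of fun j l => M j l p)) =
      ∑ σ : Equiv.Perm (Fin n), (((Equiv.Perm.sign σ : ℤˣ) : ℤ) : ℂ) •
        ∏ j : Fin n, M (σ j) j := by
    funext p
    rw [Finset.sum_apply, Matrix.det_apply]
    apply Finset.sum_congr rfl
    intro σ _
    rw [Pi.smul_apply, Finset.prod_apply, Units.smul_def, zsmul_eq_mul, smul_eq_mul]
    rfl
  rw [h0]
  apply Submodule.sum_mem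
  intro σ _
  apply Submodule.smul_mem
  have h1 := MPd_prod (Finset.univ : Finset (Fin n)) (fun j => d (σ j)) (fun j => M (σ j) j)
    (fun j _ => h _ _)
  rwa [Equiv.sum_comp σ d] at h1

/-- The indicator of a block. -/
def Db {k n : ℕ} (β : Fin k) : Fin (k * n) → ℕ := ∑ s : Fin n, Pi.single (finProdFinEquiv (β, s)) 1

lemma Db_apply {k n : ℕ} (β : Fin k) (x : Fin (k * n)) :
    Db β x = if (finProdFinEquiv.symm x).1 = β then 1 else 0 := by
  classical
  unfold Db
  rw [Finset.sum_apply]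
  by_cases h : (finProdFinEquiv.symm x).1 = β
  · rw [if_pos h, Finset.sum_eq_single (finProdFinEquiv.symm x).2]
    · have h1 : finProdFinEquiv (β, (finProdFinEquiv.symm x).2) = x := by
        rw [← h]
        exact finProdFinEquiv.apply_symm_apply x
      rw [h1, Pi.single_eq_same]
    · intro s _ hs
      rw [Pi.single_eq_of_ne]
      intro h2
      apply hs
      rw [h2, Equiv.symm_apply_apply]
    · intro h2
      exact absurd (Finset.mem_univ _) h2
  · rw [if_neg h]
    apply Finset.sum_eq_zero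
    intro s _
    rw [Pi.single_eq_of_ne]
    intro h2
    apply h
    rw [h2, Equiv.symm_apply_apply]

lemma adj_MPd {r k : ℕ} (β : Fin k) (l s : Fin (r + 1)) :
    (fun p : Fin (k * nn r) → Fin (r + 1) → ℂ => (WA (pt p β)).adjugate l s) ∈
      MPd (k * nn r) (r + 1) (∑ j : Fin (r + 1), if j = s then 0 else
        Pi.single (finProdFinEquiv (β, Fin.castAdd (r + (r + 1)) j)) 1) := by
  classical
  have h := det_MPd (B := k * nn r) (m := r + 1) (fun j : Fin (r + 1) => if j = s then 0 else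
        Pi.single (finProdFinEquiv (β, Fin.castAdd (r + (r + 1)) j)) 1)
    (fun j u => if j = s then (fun _ => (Pi.single l 1 : Fin (r + 1) → ℂ) u) else
      fun p => p (finProdFinEquiv (β, Fin.castAdd (r + (r + 1)) j)) u) (by
      intro j u
      by_cases hj : j = s
      · simp only [if_pos hj]
        exact const_MPd _
      · simp only [if_neg hj]
        exact coord_MPd _ _)
  refine (congrArg (fun G => G ∈ MPd (k * nn r) (r + 1) _) ?_).mp h
  funext p
  rw [Matrix.adjugate_apply]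
  congr 1
  ext j u
  rw [Matrix.of_apply]
  by_cases hj : j = s
  · subst hj
    rw [if_pos rfl, Matrix.updateRow_self]
  · rw [if_neg hj, Matrix.updateRow_ne hj]
    rfl

lemma WB_MPd {r k : ℕ} (β : Fin k) (s : Fin (r + 1)) :
    (fun p : Fin (k * nn r) → Fin (r + 1) → ℂ => (WB (pt p β) s).det) ∈
      MPd (k * nn r) (r + 1) (Pi.single (finProdFinEquiv (β, Fin.castAdd (r + (r + 1)) s)) 1 +
        ∑ u : Fin r, Pi.single
          (finProdFinEquiv (β, Fin.natAdd (r + 1) (Fin.castAdd (r + 1) u))) 1) := by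
  classical
  have h := det_MPd (B := k * nn r) (m := r + 1) (n := r + 1)
    (Fin.cons (Pi.single (finProdFinEquiv (β, Fin.castAdd (r + (r + 1)) s)) 1)
      (fun u : Fin r => Pi.single
          (finProdFinEquiv (β, Fin.natAdd (r + 1) (Fin.castAdd (r + 1) u))) 1))
    (fun j l p => WB (pt p β) s j l) (by
      intro j l
      refine Fin.cases ?_ (fun u => ?_) j
      · exact coord_MPd _ _
      · exact coord_MPd _ _)
  rw [Fin.sum_univ_succ, Fin.cons_zero] at h
  simp only [Fin.cons_succ] at h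
  exact h

lemma WC_MPd {r k : ℕ} (β : Fin k) :
    (fun p : Fin (k * nn r) → Fin (r + 1) → ℂ => (WC (pt p β)).det) ∈
      MPd (k * nn r) (r + 1) (∑ v : Fin (r + 1), Pi.single
          (finProdFinEquiv (β, Fin.natAdd (r + 1) (Fin.natAdd r v))) 1) :=
  det_MPd (B := k * nn r) (m := r + 1) (n := r + 1)
    (fun v => Pi.single (finProdFinEquiv (β, Fin.natAdd (r + 1) (Fin.natAdd r v))) 1)
    (fun j l p => WC (pt p β) j l) (fun _ _ => coord_MPd _ _)

lemma Yb_MPd {r k : ℕ} (β : Fin k) (l s : Fin (r + 1)) :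
    (fun p : Fin (k * nn r) → Fin (r + 1) → ℂ => Yb (pt p β) l s) ∈
      MPd (k * nn r) (r + 1) (Db β) := by
  classical
  have h := MPd_mul (adj_MPd β l s) (MPd_mul (WB_MPd β s) (WC_MPd β))
  have hd : (∑ j : Fin (r + 1), if j = s then 0 else
        Pi.single (finProdFinEquiv (β, Fin.castAdd (r + (r + 1)) j)) 1) +
      (Pi.single (finProdFinEquiv (β, Fin.castAdd (r + (r + 1)) s)) 1 +
        ∑ u : Fin r, Pi.single
          (finProdFinEquiv (β, Fin.natAdd (r + 1) (Fin.castAdd (r + 1) u))) 1 +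
        ∑ v : Fin (r + 1), Pi.single
          (finProdFinEquiv (β, Fin.natAdd (r + 1) (Fin.natAdd r v))) 1) =
      (Db β : Fin (k * nn r) → ℕ) := by
    have h1 : (∑ j : Fin (r + 1), if j = s then 0 else
        Pi.single (finProdFinEquiv (β, Fin.castAdd (r + (r + 1)) j)) 1) +
        Pi.single (finProdFinEquiv (β, Fin.castAdd (r + (r + 1)) s)) 1 =
        (∑ j : Fin (r + 1), Pi.single (finProdFinEquiv (β, Fin.castAdd (r + (r + 1)) j)) 1 :
          Fin (k * nn r) → ℕ) := by
      rw [← Finset.add_sum_erase Finset.univ _ (Finset.mem_univ s), if_pos rfl, zero_add,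
        ← Finset.add_sum_erase Finset.univ
          (fun j => (Pi.single (finProdFinEquiv (β, Fin.castAdd (r + (r + 1)) j)) 1 :
            Fin (k * nn r) → ℕ)) (Finset.mem_univ s), add_comm]
      congr 1
      apply Finset.sum_congr rfl
      intro j hj
      rw [if_neg (Finset.ne_of_mem_erase hj)]
    have h2 : ∀ f : Fin (nn r) → (Fin (k * nn r) → ℕ), ∑ s, f s =
        (∑ j : Fin (r + 1), f (Fin.castAdd (r + (r + 1)) j)) +
          ((∑ u : Fin r, f (Fin.natAdd (r + 1) (Fin.castAdd (r + 1) u))) +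
            ∑ v : Fin (r + 1), f (Fin.natAdd (r + 1) (Fin.natAdd r v))) := fun f =>
      (Fin.sum_univ_add f).trans (congrArg _ (Fin.sum_univ_add _))
    unfold Db
    rw [h2, ← h1]
    abel
  rw [hd] at h
  refine (congrArg (fun G => G ∈ MPd (k * nn r) (r + 1) _) ?_).mp h
  funext p
  rw [Pi.mul_apply, Pi.mul_apply]
  unfold Yb
  rw [Matrix.mul_diagonal]

/-- The coefficient functions of the substituted coordinates. -/
noncomputable def Lf {r k : ℕ} (H : Matrix (Fin (r + 1)) (Fin (r + 1)) ℂ) (β : Fin k)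
    (j : Fin (k * nn r)) (i : Fin (r + 1)) : (Fin (k * nn r) → Fin (r + 1) → ℂ) → ℂ :=
  fun p => Matrix.vecMul (p j) (Yb (pt p β) * H) i

lemma Lf_MPd {r k : ℕ} (H : Matrix (Fin (r + 1)) (Fin (r + 1)) ℂ) (β : Fin k)
    (j : Fin (k * nn r)) (i : Fin (r + 1)) :
    Lf H β j i ∈ MPd (k * nn r) (r + 1) (Pi.single j 1 + Db β) := by
  classical
  have h : Lf H β j i = ∑ l : Fin (r + 1), ∑ s : Fin (r + 1), H s i •
      ((fun p : Fin (k * nn r) → Fin (r + 1) → ℂ => p j l) *
        (fun p : Fin (k * nn r) → Fin (r + 1) → ℂ => Yb (pt p β) l s)) := by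
    funext p
    simp only [Finset.sum_apply, Pi.smul_apply, Pi.mul_apply, smul_eq_mul, Lf, Matrix.vecMul,
      dotProduct, Matrix.mul_apply, Finset.mul_sum]
    apply Finset.sum_congr rfl
    intro l _
    apply Finset.sum_congr rfl
    intro s _
    ring
  rw [h]
  exact Submodule.sum_mem _ (fun l _ => Submodule.sum_mem _ (fun s _ =>
    Submodule.smul_mem _ _ (MPd_mul (coord_MPd _ _) (Yb_MPd _ _ _))))

lemma vecMul_YY {r k : ℕ} (t : Fin k → ℂ) (H : Matrix (Fin (r + 1)) (Fin (r + 1)) ℂ)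
    (p : Fin (k * nn r) → Fin (r + 1) → ℂ) (j : Fin (k * nn r)) (i : Fin (r + 1)) :
    Matrix.vecMul (p j) (YY t p * H) i = ∑ β, t β * Lf H β j i p := by
  unfold YY Lf
  simp only [Matrix.vecMul, dotProduct, Finset.sum_mul, Matrix.sum_apply, Matrix.smul_mul,
    Matrix.smul_apply, smul_eq_mul, Finset.mul_sum]
  rw [Finset.sum_comm]
  apply Finset.sum_congr rfl
  intro β _
  apply Finset.sum_congr rfl
  intro l _
  ring

/-- The number of units in a block. -/
def nf {ι : Type} [Fintype ι] {k : ℕ} (f : ι → Fin k) (β : Fin k) : ℕ :=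
  (Finset.univ.filter (fun u => f u = β)).card

lemma prod_nf {ι : Type} [Fintype ι] {k : ℕ} (f : ι → Fin k) (τ : Fin k → ℂ) :
    ∏ u, τ (f u) = ∏ β, τ β ^ nf f β := by
  classical
  rw [← Finset.prod_fiberwise Finset.univ f]
  apply Finset.prod_congr rfl
  intro β _
  rw [Finset.prod_congr rfl (fun u hu => by rw [(Finset.mem_filter.1 hu).2] :
    ∀ u ∈ Finset.univ.filter (fun u => f u = β), τ (f u) = τ β), Finset.prod_const, nf]

lemma sum_nf {ι : Type} [Fintype ι] {k : ℕ} (f : ι → Fin k) :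
    ∑ β, nf f β = Fintype.card ι := by
  classical
  unfold nf
  rw [← Finset.card_univ]
  exact (Finset.card_eq_sum_card_fiberwise (fun u _ => Finset.mem_univ (f u))).symm

/-- Row V2 for coordinate monomials. -/
lemma TH_mono {r k c N : ℕ} (τ : Fin N → Fin k → ℂ) (α : Fin N → ℂ)
    (hP : Polar k (nn r * c) τ α) (H : Matrix (Fin (r + 1)) (Fin (r + 1)) ℂ)
    (i : Fin (k * nn r) → Fin c → Fin (r + 1)) :
    TH τ α H (mono i) ∈ MP (k * nn r) (r + 1) (3 * (r + 1) * c) := by
  classical
  have hexp : TH τ α H (mono i) = ∑ f : Fin (k * nn r) × Fin c → Fin k,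
      (if nf f = fun _ => nn r * c then (1 : ℂ) else 0) • ∏ u, Lf H (f u) u.1 (i u.1 u.2) := by
    funext p
    rw [Finset.sum_apply]
    unfold TH mono
    have h1 : ∀ n : Fin N, ∏ j, ∏ t, Matrix.vecMul (p j) (YY (τ n) p * H) (i j t) =
        ∑ f : Fin (k * nn r) × Fin c → Fin k, (∏ β, τ n β ^ nf f β) *
          ∏ u, Lf H (f u) u.1 (i u.1 u.2) p := by
      intro n
      rw [← Fintype.prod_prod_type' (f := fun j t =>
        Matrix.vecMul (p j) (YY (τ n) p * H) (i j t)),
        Finset.prod_congr rfl (fun u _ => vecMul_YY (τ n) H p u.1 (i u.1 u.2)),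
        Finset.prod_univ_sum, Fintype.piFinset_univ]
      apply Finset.sum_congr rfl
      intro f _
      rw [Finset.prod_mul_distrib, prod_nf]
    rw [Finset.sum_congr rfl (fun n _ => by rw [h1 n, Finset.mul_sum] :
      ∀ n ∈ (Finset.univ : Finset (Fin N)), α n *
        ∏ j, ∏ t, Matrix.vecMul (p j) (YY (τ n) p * H) (i j t) =
        ∑ f : Fin (k * nn r) × Fin c → Fin k, α n * ((∏ β, τ n β ^ nf f β) *
          ∏ u, Lf H (f u) u.1 (i u.1 u.2) p)), Finset.sum_comm]
    apply Finset.sum_congr rfl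
    intro f _
    have h2 := hP (nf f) (by
      rw [sum_nf, Fintype.card_prod, Fintype.card_fin, Fintype.card_fin, mul_assoc])
    rw [Pi.smul_apply, smul_eq_mul, ← h2, Finset.sum_mul, Finset.prod_apply]
    apply Finset.sum_congr rfl
    intro n _
    ring
  rw [hexp]
  apply Submodule.sum_mem
  intro f _
  by_cases hf : nf f = fun _ => nn r * c
  · apply Submodule.smul_mem
    have h := MPd_prod (Finset.univ : Finset (Fin (k * nn r) × Fin c))
      (fun u => Pi.single u.1 1 + Db (f u)) (fun u => Lf H (f u) u.1 (i u.1 u.2))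
      (fun u _ => Lf_MPd _ _ _ _)
    have hd : (∑ u : Fin (k * nn r) × Fin c, (Pi.single u.1 1 + Db (f u)) :
        Fin (k * nn r) → ℕ) = fun _ => 3 * (r + 1) * c := by
      funext x
      rw [Finset.sum_add_distrib, Pi.add_apply, Finset.sum_apply, Finset.sum_apply]
      have h3 : ∑ u : Fin (k * nn r) × Fin c, (Pi.single u.1 1 : Fin (k * nn r) → ℕ) x = c := by
        rw [Fintype.sum_prod_type, Finset.sum_eq_single x]
        · simp
        · intro y _ hy
          apply Finset.sum_eq_zero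
          intro t _
          exact Pi.single_eq_of_ne (fun h => hy h.symm) _
        · intro h
          exact absurd (Finset.mem_univ x) h
      have h4 : ∑ u : Fin (k * nn r) × Fin c, (Db (f u) : Fin (k * nn r) → ℕ) x =
          nn r * c := by
        have h5 := congrFun hf (finProdFinEquiv.symm x).1
        rw [← h5, nf, Finset.card_filter]
        apply Finset.sum_congr rfl
        intro u _
        rw [Db_apply]
        by_cases h6 : f u = (finProdFinEquiv.symm x).1
        · rw [if_pos h6.symm, if_pos h6]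
        · rw [if_neg (fun h => h6 h.symm), if_neg h6]
      rw [h3, h4]
      unfold nn
      ring
    rw [hd] at h
    exact h
  · rw [if_neg hf, zero_smul]
    exact Submodule.zero_mem _

lemma TH_add {r k N : ℕ} (τ : Fin N → Fin k → ℂ) (α : Fin N → ℂ)
    (H : Matrix (Fin (r + 1)) (Fin (r + 1)) ℂ)
    (F G : (Fin (k * nn r) → Fin (r + 1) → ℂ) → ℂ) :
    TH τ α H (F + G) = TH τ α H F + TH τ α H G := by
  funext p
  simp only [TH, Pi.add_apply, mul_add, Finset.sum_add_distrib]

lemma TH_smul {r k N : ℕ} (τ : Fin N → Fin k → ℂ) (α : Fin N → ℂ)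
    (H : Matrix (Fin (r + 1)) (Fin (r + 1)) ℂ) (z : ℂ)
    (F : (Fin (k * nn r) → Fin (r + 1) → ℂ) → ℂ) :
    TH τ α H (z • F) = z • TH τ α H F := by
  funext p
  simp only [TH, Pi.smul_apply, smul_eq_mul, Finset.mul_sum]
  apply Finset.sum_congr rfl
  intro i _
  ring

/-- ROW V2. -/
theorem v2 {r k c N : ℕ} (τ : Fin N → Fin k → ℂ) (α : Fin N → ℂ)
    (hP : Polar k (nn r * c) τ α) (H : Matrix (Fin (r + 1)) (Fin (r + 1)) ℂ)
    (F : (Fin (k * nn r) → Fin (r + 1) → ℂ) → ℂ) (hF : F ∈ MP (k * nn r) (r + 1) c) :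
    TH τ α H F ∈ MP (k * nn r) (r + 1) (3 * (r + 1) * c) := by
  have key : ∀ G ∈ Submodule.span ℂ
      (Set.range (fun i : Fin (k * nn r) → Fin c → Fin (r + 1) => mono i)),
      TH τ α H G ∈ MP (k * nn r) (r + 1) (3 * (r + 1) * c) := by
    intro G hG
    induction hG using Submodule.span_induction with
    | mem G hG =>
      obtain ⟨i, rfl⟩ := hG
      exact TH_mono τ α hP H i
    | zero =>
      have h0 := TH_smul τ α H 0 (0 : (Fin (k * nn r) → Fin (r + 1) → ℂ) → ℂ)
      rw [zero_smul, zero_smul] at h0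
      rw [h0]
      exact Submodule.zero_mem _
    | add G G' _ _ h h' =>
      rw [TH_add]
      exact Submodule.add_mem _ h h'
    | smul z G _ h =>
      rw [TH_smul]
      exact Submodule.smul_mem _ _ h
  exact key F (MP_le hF)

end Vale.Agent.P181.H188V
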