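import Vale.Agent.P181.R2.H130.V9
import Vale.Agent.P181.R2.H425.V9Num
import Vale.Agent.P181.R2.H959.VSeven

/-!
# P181, theorem V: row V9, unconditional (helper130's assembly, helper425's numbers, helper959's V7)
-/

set_option autoImplicit false

open scoped TensorProduct

namespace Vale.Agent.P181.VT

open Vale.Agent.P181 Vale.Agent.P181.H280 Vale.Agent.P181.FR Vale.Agent.P181.FR.W11

open V9H

/-- V9: Foulkes' inequality away from the last wall, for `b ≥ (1 + δ) a`. -/
theorem nine : ∀ (n : ℕ) {δ κ : ℝ}, 0 < δ → 0 < κ → ∃ A : ℕ,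
    ∀ (a b : ℕ) (lam : Fin (n + 3) → ℕ), A ≤ a → (1 + δ) * a ≤ b →
    κ * (a * b) ≤ lam (Fin.last _) →
    plethMult a b (n + 3) lam ≤ plethMult b a (n + 3) lam := by
  intro n δ κ hδ hκ
  obtain ⟨C1, A1, hlarge⟩ := large n hκ
  obtain ⟨N0, N1, hV7⟩ := seven (n + 2) (by omega)
  obtain ⟨K, hK0, hcore⟩ := gap_coreY (m := n + 3) (i := n + 3) (by omega) (le_refl _)
    (pos_all (by omega) (le_refl _))
  obtain ⟨A2, hnum⟩ := vnum n hδ hκ K N0 N1 C1
  refine ⟨A1 + A2, fun a b lam hA hab hlam => ?_⟩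
  by_cases hz : plethMult a b (n + 3) lam = 0
  · rw [hz]
    exact Nat.zero_le _
  have hne : hwSpace lam (plethAct a b (n + 3)) ≠ ⊥ := by
    intro h
    apply hz
    rw [plethMult, h, finrank_bot]
  obtain ⟨x, hx, hx0⟩ := Submodule.exists_mem_ne_zero_of_ne_bot hne
  have hanti := hw_antitone hx hx0
  have hsum : ∑ i, lam i = a * b := hw_sum hx hx0
  have hle : a ≤ b := by
    have h1 : (a : ℝ) ≤ (1 + δ) * a := by nlinarith [Nat.cast_nonneg (α := ℝ) a]
    exact_mod_cast h1.trans hab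
  rcases le_total (C1 * a) b with hc | hc
  · have h1 : (lam (Fin.last _) : ℝ) ≤ lam 1 := by exact_mod_cast hanti _ _ (Fin.le_last _)
    have h2 : (lam (Fin.last _) : ℝ) ≤ lam 2 := by exact_mod_cast hanti _ _ (Fin.le_last _)
    exact hlarge a b lam (by omega) hc hle (hlam.trans h1) (hlam.trans h2)
  obtain ⟨k, c, h, s, hk, hKB, hKa, hKb, hh, hs, hX, hL0⟩ := hnum a b (by omega) hab hc
  have hL : ∀ L : ℕ, a.factorial * L ≤ ((b + 1) ^ (n + 2) + a) ^ a →
      L * (k * nn (n + 2) * c + 1) ^ ((n + 3) * (n + 3)) ≤ s ^ (k * nn (n + 2)) := fun L hl =>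
    (Nat.mul_le_mul_left _ (Nat.pow_le_pow_right (Nat.succ_pos _) (Nat.le_add_right _ _))).trans
      (hL0 L hl)
  obtain ⟨B, hB⟩ : ∃ B, B = k * nn (n + 2) := ⟨_, rfl⟩
  obtain ⟨X, hXd⟩ : ∃ X, X = 3 * (k * nn (n + 2) * c) + k * N1 := ⟨_, rfl⟩
  have h7 := hV7 k c
  rw [← hXd] at h7 hX
  rw [← hB] at hs hKB hKb hL h7
  have h8 : s ^ B ≤ Module.finrank ℂ (Pleth B c (n + 3)) := dim_ge hh hs
  have h9 := hL _ (plethMult_le_fac a b (n + 2) lam)
  have h10 : plethMult a b (n + 3) lam * (B * c + 1) ^ ((n + 3) * (n + 3)) ≤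
      (B * c + 1) ^ ((n + 3) * (n + 3)) *
        plethMult B (3 * (n + 3) * c + N0) (n + 3) (X • om (n + 3) (n + 3)) :=
    h9.trans (h8.trans h7)
  have h11 : plethMult a b (n + 3) lam ≤
      plethMult B (3 * (n + 3) * c + N0) (n + 3) (X • om (n + 3) (n + 3)) := by
    rw [Nat.mul_comm] at h10
    exact Nat.le_of_mul_le_mul_left h10 (by positivity)
  have hS : plethMult B (3 * (n + 3) * c + N0) (n + 3) (X • om (n + 3) (n + 3)) ≠ 0 := by
    intro h0
    rw [h0] at h11
    exact hz (Nat.le_zero.1 h11)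
  have hne' : hwSpace (X • om (n + 3) (n + 3))
      (plethAct B (3 * (n + 3) * c + N0) (n + 3)) ≠ ⊥ := by
    intro h
    apply hS
    rw [plethMult, h, finrank_bot]
  obtain ⟨y, hy, hy0⟩ := Submodule.exists_mem_ne_zero_of_ne_bot hne'
  have hsum' : ∑ i, (X • om (n + 3) (n + 3)) i = B * (3 * (n + 3) * c + N0) := hw_sum hy hy0
  have hom : ∀ i, (X • om (n + 3) (n + 3)) i = X := by
    intro i
    have hi : om (n + 3) (n + 3) i = 1 := if_pos i.2
    rw [Pi.smul_apply, hi, smul_eq_mul, mul_one]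
  have hXs : (n + 3) * X = (3 * (n + 3) * c + N0) * B := by
    rw [Finset.sum_congr rfl (fun i _ => hom i), Finset.sum_const, Finset.card_univ,
      Fintype.card_fin, smul_eq_mul] at hsum'
    rw [hsum', Nat.mul_comm]
  have hmem : n + 3 ∈ Finset.Icc 1 (n + 3) := Finset.mem_Icc.2 ⟨by omega, le_refl _⟩
  have hlast : gap lam (n + 3) = lam (Fin.last _) := by
    unfold gap ext
    rw [dif_pos (show n + 3 - 1 < n + 3 by omega), dif_neg (lt_irrefl _), Nat.sub_zero]
    rfl
  have hgap : X + K * a ≤ gap lam (n + 3) := by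
    rw [hlast]
    exact_mod_cast hX.trans hlam
  have hgw : gw (n + 3) (fun j => if j = n + 3 then X else 0) = X • om (n + 3) (n + 3) := by
    funext k
    rw [hom k]
    show ∑ j ∈ Finset.Ioc (k : ℕ) (n + 3), (if j = n + 3 then X else 0) = X
    rw [Finset.sum_ite_eq', if_pos (Finset.mem_Ioc.2 ⟨k.2, le_refl _⟩)]
  have hdv : n + 3 ∣ B := by
    rw [hB]
    exact hk.mul_right _
  have hu1 : ∀ j, (fun j => if j = n + 3 then X else 0) j ≤ gap lam j := by
    intro j
    show (if j = n + 3 then X else 0) ≤ gap lam j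
    by_cases hj : j = n + 3
    · rw [if_pos hj, hj]
      omega
    · rw [if_neg hj]
      exact Nat.zero_le _
  have hu2 : ∑ j ∈ Finset.Icc 1 (n + 3), j * (fun j => if j = n + 3 then X else 0) j =
      (3 * (n + 3) * c + N0) * B := by
    rw [Finset.sum_eq_single (n + 3)]
    · show (n + 3) * (if n + 3 = n + 3 then X else 0) = _
      rw [if_pos rfl, hXs]
    · intro j _ hj
      show j * (if j = n + 3 then X else 0) = 0
      rw [if_neg hj, mul_zero]
    · intro h
      exact absurd hmem h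
  have hu3 : ∑ j ∈ Finset.Icc 1 (n + 3), j * gap lam j = a * b := by
    rw [sum_gap hanti, hsum]
  have hu4 : (fun j => if j = n + 3 then X else 0) (n + 3) + K * a ≤ gap lam (n + 3) := by
    show (if n + 3 = n + 3 then X else 0) + K * a ≤ gap lam (n + 3)
    rw [if_pos rfl]
    exact hgap
  have hfin := hcore a b B (3 * (n + 3) * c + N0) (plethMult a b (n + 3) lam)
    (fun j => if j = n + 3 then X else 0) (gap lam) hdv hKB hKa hKb hu1 hu2 hu3 hu4
    (by rw [hgw]; exact h11)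
  rwa [gw_gap hanti] at hfin

end Vale.Agent.P181.VT
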